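import Vale.Agent.P179.R2.H364.HypBlk
import Vale.Agent.P179.R2.H292.LDefsD

/-!
# Transfer of conditions on `(K, T)` along `ActSub`
-/

namespace P179H364

open Subgroup P179H292

open P179B (inertialGroup inertialIndex regularElements RegularCoset PowerFaithful)

open scoped Classical

section Act

variable {G X : Type*} [Group G] [Group X] {K T : Subgroup G} {D' T' : Subgroup X}

theorem act_spec (hK : ∀ t ∈ T, ∀ x ∈ K, t * x * t⁻¹ ∈ K) (h : ActSub K T D' T') :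
    ∃ e : K ≃* D', ∀ t' ∈ T', ∃ t ∈ T,
      (∀ x y : K, (y : G) = t * x * t⁻¹ ↔ (e y : X) = t' * (e x : X) * t'⁻¹) ∧
      (t ∈ centralizer (K : Set G) ↔ t' ∈ centralizer (D' : Set X)) := by
  obtain ⟨e, he⟩ := h
  refine ⟨e, fun t' ht' => ?_⟩
  obtain ⟨t, ht, hte⟩ := he t' ht'
  have key : ∀ x y : K, (y : G) = t * x * t⁻¹ ↔ (e y : X) = t' * (e x : X) * t'⁻¹ := by
    intro x y
    refine ⟨fun h => hte x y h, fun h => ?_⟩
    have h1 := hte x ⟨t * x * t⁻¹, hK t ht x x.2⟩ rfl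
    rw [← h] at h1
    have h2 := e.injective (Subtype.ext h1)
    exact (congrArg Subtype.val h2).symm
  refine ⟨t, ht, key, ?_, ?_⟩
  · intro h5
    rw [mem_centralizer_iff] at h5 ⊢
    intro z hz
    obtain ⟨y, hy⟩ := e.surjective ⟨z, hz⟩
    have h6 := (key y y).1 (by rw [← h5 y y.2, mul_inv_cancel_right])
    rw [hy] at h6
    change z = t' * z * t'⁻¹ at h6
    exact eq_mul_inv_iff_mul_eq.1 h6
  · intro h5
    rw [mem_centralizer_iff] at h5 ⊢
    intro z hz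
    have h6 := (key ⟨z, hz⟩ ⟨z, hz⟩).2 (by rw [← h5 _ (e _).2, mul_inv_cancel_right])
    exact eq_mul_inv_iff_mul_eq.1 h6

/-- a free action -/
theorem free_act (hK : ∀ t ∈ T, ∀ x ∈ K, t * x * t⁻¹ ∈ K) (h : ActSub K T D' T')
    (hf : ∀ u ∈ K, u ≠ 1 → ∀ t ∈ T, t * u * t⁻¹ = u → t ∈ centralizer (K : Set G)) :
    ∀ u ∈ D', u ≠ 1 → ∀ t ∈ T', t * u * t⁻¹ = u → t ∈ centralizer (D' : Set X) := by
  obtain ⟨e, he⟩ := act_spec hK h
  intro u hu hu1 t' ht' htu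
  obtain ⟨t, ht, hte, hc⟩ := he t' ht'
  obtain ⟨x, hx⟩ := e.surjective ⟨u, hu⟩
  have hx1 : (x : G) ≠ 1 := by
    intro h
    apply hu1
    have h1 : x = 1 := Subtype.ext h
    rw [h1, map_one] at hx
    exact (congrArg Subtype.val hx).symm
  refine hc.1 (hf x x.2 hx1 t ht ?_)
  have h2 := (hte x x).2 (by rw [hx]; exact htu.symm)
  exact h2.symm

/-- a faithful action on the powers -/
theorem faithful_act (hK : ∀ t ∈ T, ∀ x ∈ K, t * x * t⁻¹ ∈ K) (h : ActSub K T D' T') (q : ℕ)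
    (hf : ∀ t ∈ T, (∀ d ∈ K, t * d ^ q * t⁻¹ = d ^ q) → t ∈ centralizer (K : Set G)) :
    ∀ t ∈ T', (∀ d ∈ D', t * d ^ q * t⁻¹ = d ^ q) → t ∈ centralizer (D' : Set X) := by
  obtain ⟨e, he⟩ := act_spec hK h
  intro t' ht' htd
  obtain ⟨t, ht, hte, hc⟩ := he t' ht'
  refine hc.1 (hf t ht fun d hd => ?_)
  have h1 := htd _ (e ⟨d, hd⟩).2
  have h2 : ((e (⟨d, hd⟩ ^ q) : D') : X) = t' * ((e (⟨d, hd⟩ ^ q) : D') : X) * t'⁻¹ := by
    rw [map_pow]
    exact h1.symm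
  have h3 := (hte _ _).2 h2
  exact h3.symm

/-- the index of the kernel of the action -/
theorem relIndex_act [Finite G] (hK : ∀ t ∈ T, ∀ x ∈ K, t * x * t⁻¹ ∈ K) (h : ActSub K T D' T') :
    (centralizer (D' : Set X)).relIndex T' ≤ (centralizer (K : Set G)).relIndex T := by
  obtain ⟨e, he⟩ := act_spec hK h
  choose! φ hφ hφe hφc using he
  unfold relIndex
  refine Nat.card_le_card_of_injective (fun q : T' ⧸ (centralizer (D' : Set X)).subgroupOf T' =>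
    ((⟨φ q.out, hφ _ q.out.2⟩ : T) : T ⧸ (centralizer (K : Set G)).subgroupOf T)) ?_
  intro q r hqr
  have h0 : (⟨φ q.out, hφ _ q.out.2⟩ : T)⁻¹ * ⟨φ r.out, hφ _ r.out.2⟩ ∈
      (centralizer (K : Set G)).subgroupOf T := QuotientGroup.eq.1 hqr
  have h1 : (φ q.out)⁻¹ * φ r.out ∈ centralizer (K : Set G) := h0
  rw [mem_centralizer_iff] at h1
  rw [← q.out_eq', ← r.out_eq']
  refine QuotientGroup.eq.2 ?_
  rw [mem_subgroupOf, mem_centralizer_iff]
  intro y hy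
  obtain ⟨x, hx⟩ := e.surjective ⟨y, hy⟩
  have h2 : φ (q.out : X) * (x : G) * (φ (q.out : X))⁻¹ =
      φ (r.out : X) * (x : G) * (φ (r.out : X))⁻¹ := by
    have h3 := h1 x x.2
    calc φ (q.out : X) * (x : G) * (φ (q.out : X))⁻¹
        = φ (q.out : X) * ((x : G) * ((φ (q.out : X))⁻¹ * φ (r.out : X))) *
            (φ (r.out : X))⁻¹ := by group
      _ = φ (r.out : X) * (x : G) * (φ (r.out : X))⁻¹ := by rw [h3]; group
  have h4 := (hφe _ q.out.2 x ⟨φ (q.out : X) * x * (φ (q.out : X))⁻¹,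
    hK _ (hφ _ q.out.2) x x.2⟩).1 rfl
  have h5 := (hφe _ r.out.2 x ⟨φ (q.out : X) * x * (φ (q.out : X))⁻¹,
    hK _ (hφ _ q.out.2) x x.2⟩).1 h2
  rw [h4, hx] at h5
  change (q.out : X) * y * (q.out : X)⁻¹ = r.out * y * (r.out : X)⁻¹ at h5
  change y * ((q.out : X)⁻¹ * r.out) = (q.out : X)⁻¹ * r.out * y
  calc y * ((q.out : X)⁻¹ * r.out)
      = (q.out : X)⁻¹ * ((q.out : X) * y * (q.out : X)⁻¹) * r.out := by group
    _ = (q.out : X)⁻¹ * r.out * y := by rw [h5]; group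

theorem card_act (h : ActSub K T D' T') : Nat.card D' = Nat.card K := by
  obtain ⟨e, -⟩ := h
  exact (Nat.card_congr e.toEquiv).symm

theorem exponent_act (h : ActSub K T D' T') : Monoid.exponent D' = Monoid.exponent K := by
  obtain ⟨e, -⟩ := h
  exact (Monoid.exponent_eq_of_mulEquiv e).symm

/-- a condition on the elements of `K` which is preserved by isomorphisms -/
theorem card_sub_act (e : K ≃* D') (P : K → Prop) (P' : D' → Prop) (h : ∀ x, P x ↔ P' (e x)) :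
    Nat.card {x : X // ∃ hx : x ∈ D', P' ⟨x, hx⟩} = Nat.card {x : G // ∃ hx : x ∈ K, P ⟨x, hx⟩} := by
  symm
  refine Nat.card_congr
    { toFun := fun x => ⟨e ⟨x, x.2.1⟩, (e ⟨x, x.2.1⟩).2, (h _).1 x.2.2⟩
      invFun := fun x => ⟨e.symm ⟨x, x.2.1⟩, (e.symm ⟨x, x.2.1⟩).2, (h _).2 (by
        rw [Subtype.coe_eta, MulEquiv.apply_symm_apply]
        exact x.2.2)⟩
      left_inv := fun x => ?_
      right_inv := fun x => ?_ }
  · apply Subtype.ext
    simp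
  · apply Subtype.ext
    simp

theorem card_omega_act (p : ℕ) (h : ActSub K T D' T') :
    Nat.card {x : X // x ∈ D' ∧ x ^ p = 1} = Nat.card {x : G // x ∈ K ∧ x ^ p = 1} := by
  obtain ⟨e, -⟩ := h
  have h1 := card_sub_act e (fun x => x ^ p = 1) (fun x => x ^ p = 1) fun x => by
    rw [← map_pow, MulEquiv.map_eq_one_iff]
  refine Eq.trans ?_ (h1.trans ?_)
  · refine Nat.card_congr (Equiv.subtypeEquivRight fun x => ?_)
    exact ⟨fun h => ⟨h.1, Subtype.ext h.2⟩, fun ⟨hx, h⟩ => ⟨hx, congrArg Subtype.val h⟩⟩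
  · refine Nat.card_congr (Equiv.subtypeEquivRight fun x => ?_)
    exact ⟨fun ⟨hx, h⟩ => ⟨hx, congrArg Subtype.val h⟩, fun h => ⟨h.1, Subtype.ext h.2⟩⟩

theorem card_pow_act (q : ℕ) (h : ActSub K T D' T') :
    Nat.card {y : X // ∃ d ∈ D', d ^ q = y} = Nat.card {y : G // ∃ d ∈ K, d ^ q = y} := by
  obtain ⟨e, -⟩ := h
  have h1 := card_sub_act e (fun x => ∃ d : K, d ^ q = x) (fun x => ∃ d : D', d ^ q = x)
    fun x => by
      constructor
      · rintro ⟨d, rfl⟩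
        exact ⟨e d, by rw [map_pow]⟩
      · rintro ⟨d, hd⟩
        refine ⟨e.symm d, ?_⟩
        rw [← map_pow, hd, MulEquiv.symm_apply_apply]
  refine Eq.trans ?_ (h1.trans ?_)
  · refine Nat.card_congr (Equiv.subtypeEquivRight fun x => ?_)
    constructor
    · rintro ⟨d, hd, rfl⟩
      exact ⟨pow_mem hd q, ⟨d, hd⟩, rfl⟩
    · rintro ⟨hx, ⟨d, hd⟩, h⟩
      exact ⟨d, hd, congrArg Subtype.val h⟩
  · refine Nat.card_congr (Equiv.subtypeEquivRight fun x => ?_)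
    constructor
    · rintro ⟨hx, ⟨d, hd⟩, h⟩
      exact ⟨d, hd, congrArg Subtype.val h⟩
    · rintro ⟨d, hd, rfl⟩
      exact ⟨pow_mem hd q, ⟨d, hd⟩, rfl⟩

end Act

end P179H364
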