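import Vale.Agent.P179.R2.H364.Onto
import Vale.Agent.P179.R2.H351.Supp

/-!
# `SuppStmt` and `OntoStmt` hold
-/

namespace P179H364

open Subgroup Finset P179H524 P179A P179P P179C P179Y P179H12 P179H854

open scoped Classical

universe u

theorem suppStmt (p : ℕ) [hp : Fact p.Prime] (k : Type u) [Field k] [IsAlgClosed k] [CharP k p] :
    SuppStmt p k := by
  intro G _ _ D P l hl hD hab hPD hnil z hzT hzP b hb hlb f hf u hu hup g hg hug
  exact P179H351.supp_conj hl hD hab hPD hnil hzT hzP (invOn_bF hb.1)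
    (by rw [mkF_bF]; exact hb) (Low.one hb hlb) hf.1 hf.2.1 hf.2.2 hu hup hg hug

theorem ontoStmt (p : ℕ) [hp : Fact p.Prime] (k : Type u) [Field k] [IsAlgClosed k]
    [CharP k p] : OntoStmt p k := onto (suppStmt p k)

end P179H364
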