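import Vale.Agent.P179.R2.H364.KForm
import Vale.Agent.P179.R2.H292.FinalF
import Vale.Agent.P179.R2.H292.LDefsE

/-!
# Conditions on `K = D` or `K = [D, T]`, in terms of the definitions of the statements
-/

namespace P179H364

open Subgroup P179H524 P179Y P179H292

open P179B (IsBlock IsDefectGroup InducesTo numSimpleIn numWeightsIn inertialGroup inertialIndex
  regularElements RegularCosetIn PowerFaithful hyperfocal IsCore)

open scoped Classical

universe u

section

variable {p : ℕ} [hp : Fact p.Prime] {k : Type u} [Field k] [IsAlgClosed k] [hk : CharP k p]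
  (red : integralClosure ℤ ℂ →+* k) {G : Type} [Group G] [Finite G]

include red in
/-- **the bound, from a regular coset in `[D, T]`** -/
theorem bound_hyp (hp2 : p ≠ 2) {B : MonoidAlgebra k G} (hB : IsBlock B)
    {D : Subgroup G} (hD : IsDefectGroup B D) (hab : ∀ a ∈ D, ∀ b ∈ D, a * b = b * a)
    {β : MonoidAlgebra k (centralizer (D : Set G))} (hβ : IsBlock β) (hβB : InducesTo β B)
    {j o : ℕ} {w : G} (h : RegularCosetIn p j o D β (hyperfocal D β) w) :
    numSimpleIn B * Nat.card {y : G // ∃ d ∈ hyperfocal D β, d ^ p ^ j = y} * o ≤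
      Nat.card (hyperfocal D β) * p := by
  rw [hyperfocal_eq] at h ⊢
  obtain ⟨hj, ho0, hw, ho, hreg, hii⟩ := h
  exact bound_regK red hp2 hB hD hab hβ hβB hj ho0 hw ho hreg hii

include red in
/-- **the bound, from a regular coset in `K = D` or `K = [D, T]`** -/
theorem bound_core (hp2 : p ≠ 2) {B : MonoidAlgebra k G} (hB : IsBlock B)
    {D : Subgroup G} (hD : IsDefectGroup B D) (hab : ∀ a ∈ D, ∀ b ∈ D, a * b = b * a)
    {β : MonoidAlgebra k (centralizer (D : Set G))} (hβ : IsBlock β) (hβB : InducesTo β B)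
    {K : Subgroup G} (hK : IsCore D β K) {j o : ℕ} {w : G} (h : RegularCosetIn p j o D β K w) :
    numSimpleIn B * Nat.card {y : G // ∃ d ∈ K, d ^ p ^ j = y} * o ≤ Nat.card K * p := by
  rcases hK with rfl | rfl
  · obtain ⟨hj, ho0, hw, ho, hreg, hii⟩ := h
    refine P179H452.m7Stmt red hp2 G B K β j o w hB hD hab hβ hβB hj hw
      (fun i hi => (ho i).1 hi) hreg (hii.trans_le (Nat.mul_le_mul_left _ ?_))
    refine le_of_eq (Nat.card_congr (Equiv.subtypeEquivRight fun x => ?_))
    exact ⟨fun h => h.2, fun h => ⟨h.1, h⟩⟩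
  · exact bound_hyp red hp2 hB hD hab hβ hβB h

/-- **free action of the inertial quotient on `K = D` or `K = [D, T]`: the congruence modulo the
exponent of `K`** -/
theorem modEq_free_core {B : MonoidAlgebra k G} (hB : IsBlock B)
    {D : Subgroup G} (hD : IsDefectGroup B D) (hab : ∀ a ∈ D, ∀ b ∈ D, a * b = b * a)
    {β : MonoidAlgebra k (centralizer (D : Set G))} (hβ : IsBlock β) (hβB : InducesTo β B)
    {K : Subgroup G} (hK : IsCore D β K) (hfree : ∀ u ∈ K, u ≠ 1 → u ∈ regularElements D β) :
    numSimpleIn B ≡ numWeightsIn p red B [MOD Monoid.exponent K] := by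
  rcases hK with rfl | rfl
  · exact P179H443.free_modEq red (P179H12.m4free p k red) hB hD hab hβ hβB hfree
  · rw [hyperfocal_eq] at hfree ⊢
    exact modEq_freeK red hB hD hab hβ hβB hfree

/-- **free action of the inertial quotient on `K = D` or `K = [D, T]`: the equality** -/
theorem eq_free_core (hp2 : p ≠ 2) {B : MonoidAlgebra k G} (hB : IsBlock B)
    {D : Subgroup G} (hD : IsDefectGroup B D) (hab : ∀ a ∈ D, ∀ b ∈ D, a * b = b * a)
    {β : MonoidAlgebra k (centralizer (D : Set G))} (hβ : IsBlock β) (hβB : InducesTo β B)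
    {K : Subgroup G} (hK : IsCore D β K) (hfree : ∀ u ∈ K, u ≠ 1 → u ∈ regularElements D β)
    (h : inertialIndex D β < Monoid.exponent K ∨
      (numWeightsIn p red B ≤ Monoid.exponent K ∧
        inertialIndex D β < Monoid.exponent K + numWeightsIn p red B) ∨
      Nat.card {x : G // x ∈ K ∧ x ^ p = 1} ≤ Monoid.exponent K) :
    numSimpleIn B = numWeightsIn p red B := by
  rcases hK with rfl | rfl
  · exact P179H443.free_eq red (P179H12.m4free p k red) hp2 hB hD hab hβ hβB hfree h
  · rw [hyperfocal_eq] at hfree h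
    exact eq_freeK red hp2 hB hD hab hβ hβB hfree h

end

end P179H364
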