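import Vale.Agent.P179.H166.Z1
import Vale.Agent.P179.R2.H872.FB

/-!
# Products of class functions with central idempotents and `p`-sections

`conv e f` for a central idempotent `e` and a class function `f`.
-/

namespace P179H364

open Subgroup Finset P179H524 P179A P179P P179Y P179C P179R

open scoped Classical

universe u

section

variable (p : ℕ) [hp : Fact p.Prime] {k : Type u} [Field k] {K : Type} [Group K]

/-- the restriction of `f` to the `p`-regular elements -/
noncomputable def reg (f : K → k) : K → k := fun x => if pr p x = x then f x else 0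

omit hp in
theorem reg_of {f : K → k} {x : K} (h : pr p x = x) : reg p f x = f x := if_pos h

omit hp in
theorem reg_of_not {f : K → k} {x : K} (h : pr p x ≠ x) : reg p f x = 0 := if_neg h

theorem pr_pr [Finite K] (x : K) : pr p (pr p x) = pr p x :=
  Q7.pr_of_regular p _ (orderOf_pos _).ne' (Q7.pr_regular p x (orderOf_pos _).ne')

theorem pr_eq_self_iff [Finite K] {x : K} : pr p x = x ↔ ¬ p ∣ orderOf x := by
  constructor
  · intro h
    rw [← h]
    exact Q7.pr_regular p x (orderOf_pos _).ne'
  · exact Q7.pr_of_regular p _ (orderOf_pos _).ne'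

theorem isCF_reg [Finite K] {f : K → k} (hf : IsCF f) : IsCF (reg p f) := by
  intro g x
  unfold reg
  rw [Q7.pr_conj p g x (orderOf_pos _).ne', hf]
  simp only [mul_left_inj, mul_right_inj]

omit [Field k] in
theorem isCF_pr [Finite K] {f : K → k} (hf : IsCF f) : IsCF (fun x => f (pr p x)) := by
  intro g x
  change f (pr p (g * x * g⁻¹)) = f (pr p x)
  rw [Q7.pr_conj p g x (orderOf_pos _).ne', hf]

variable [Fintype K]

theorem conv_sub' (a b c : K → k) : conv a (fun x => b x - c x) = fun x => conv a b x - conv a c x := by
  funext x
  unfold conv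
  rw [← Finset.sum_sub_distrib]
  exact Finset.sum_congr rfl fun h _ => by ring

/-- (SP) the product with a central idempotent respects the `p`-regular part -/
theorem conv_reg [CharP k p] {e f : K → k} (he : IsCF e) (hee : conv e e = e) (hf : IsCF f) :
    conv e (reg p f) = reg p (conv e f) := by
  funext y
  by_cases hy : pr p y = y
  · rw [reg_of p hy]
    have h := conv_idem_sec (p := p) he (F := fun x => f x - reg p f x)
      (fun g x => by
        have h1 := hf g x
        have h2 := isCF_reg p hf g x
        simp only [h1, h2]) hee y (by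
        intro q hq
        rw [hy, mul_inv_cancel, mul_inv_eq_one] at hq
        rw [reg_of p hq.symm, sub_self])
    rw [conv_sub'] at h
    exact (sub_eq_zero.1 h).symm
  · rw [reg_of_not p hy]
    refine conv_idem_sec (p := p) he (isCF_reg p hf) hee y fun q hq => ?_
    apply reg_of_not
    intro h
    rw [h, mul_inv_cancel] at hq
    exact hy (mul_inv_eq_one.1 hq.symm).symm

/-- (LE) the product of a central element with a class function depending only on the
`p`-regular parts depends only on the `p`-regular parts -/
theorem conv_pr [IsAlgClosed k] [CharP k p] {e f : K → k} (he : IsCF e) (hf : IsCF f)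
    (hfp : ∀ x, f (pr p x) = f x) (x : K) : conv e f (pr p x) = conv e f x := by
  obtain ⟨r, d, hd, F, hF, hFker⟩ := exists_wedderburn k K
  obtain ⟨c, hc⟩ := P179H872.exists_trFun p F hF hFker hf hfp
  set E : MonoidAlgebra k K := mkF (fun g => e g⁻¹) with hE
  have hEc : E ∈ Subalgebra.center k (MonoidAlgebra k K) := by
    rw [P179C.mem_center_iff]
    intro g x
    change E.coeff _ = E.coeff _
    rw [hE, coeff_mkF, coeff_mkF]
    exact isCF_inv he g x
  have hsc : ∀ i, ∃ s : k, F E i = s • (1 : Matrix (Fin (d i)) (Fin (d i)) k) := by
    intro i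
    have h1 : ∀ M : Matrix (Fin (d i)) (Fin (d i)) k, F E i * M = M * F E i := by
      intro M
      obtain ⟨x, hx⟩ := hF (Pi.single i M)
      have h2 := congrFun (congrArg F ((Subalgebra.mem_center_iff.1 hEc) x)) i
      rw [map_mul, map_mul, Pi.mul_apply, Pi.mul_apply, hx, Pi.single_eq_same] at h2
      exact h2.symm
    have h2 : F E i ∈ Subalgebra.center k (Matrix (Fin (d i)) (Fin (d i)) k) := by
      rw [Subalgebra.mem_center_iff]
      intro M
      exact (h1 M).symm
    rw [Algebra.IsCentral.center_eq_bot, Algebra.mem_bot] at h2
    obtain ⟨s, hs⟩ := h2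
    exact ⟨s, by rw [← hs, Algebra.algebraMap_eq_smul_one]⟩
  choose s hs using hsc
  have key : ∀ y : K, conv e f y = trFun F (fun i => c i * s i) y := by
    intro y
    have h1 : conv e f y = P179H872.lin f (E * MonoidAlgebra.single y 1) := by
      rw [P179H872.lin_mul_single, conv_eq_cv]
      unfold cv
      refine Finset.sum_congr rfl fun g _ => ?_
      rw [hE, coeff_mkF]
    rw [h1, hc, trFun]
    refine Finset.sum_congr rfl fun i _ => ?_
    rw [map_mul, Pi.mul_apply, hs, smul_mul_assoc, one_mul, Matrix.trace_smul, smul_eq_mul]
    ring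
  rw [key, key, C2.trFun_pr]

/-- (RB) a class function supported on the `p`-regular elements and fixed by the central
idempotent `e` extends to a function of the `p`-regular parts fixed by `e` -/
theorem exists_pr_ext [IsAlgClosed k] [CharP k p] {e f : K → k} (he : IsCF e)
    (hee : conv e e = e) (hf : IsCF f) (hfr : ∀ x, pr p x ≠ x → f x = 0) (hef : conv e f = f) :
    conv e (fun x => f (pr p x)) = fun x => f (pr p x) := by
  have h1 : reg p (fun x => f (pr p x)) = f := by
    funext x
    by_cases hx : pr p x = x
    · rw [reg_of p hx, hx]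
    · rw [reg_of_not p hx, hfr x hx]
  have h2 := conv_reg p he hee (isCF_pr p hf)
  rw [h1, hef] at h2
  funext x
  rw [← conv_pr p he (isCF_pr p hf) (fun x => by rw [pr_pr]) x]
  have h3 := congrFun h2 (pr p x)
  rw [reg_of p (pr_pr p x)] at h3
  exact h3.symm

end

end P179H364
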