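import Vale.Agent.P179.R2.H364.MDefs
import Vale.Agent.P179.R2.H364.Sec

/-!
# The comparison of the twisted lines of `(C, e)` and `(H, e_H)`
-/

namespace P179H364

open Subgroup Finset P179H524 P179A P179P P179C P179Y

open scoped Classical

universe u

section basic

variable {k : Type u} [Field k] {G : Type} [Group G]

/-- `cj c a = a` as invariance -/
theorem cj_eq_iff {a : G → k} {c : G} : cj c a = a ↔ ∀ x, a (c * x * c⁻¹) = a x := by
  constructor
  · intro h x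
    have h1 := congrFun h (c * x * c⁻¹)
    rw [← h1]
    unfold cj
    congr 1
    group
  · exact cj_eq_of_inv

/-- the subgroup fixing a function -/
def fixS (a : G → k) : Subgroup G where
  carrier := {c | cj c a = a}
  mul_mem' := by
    intro c d hc hd
    change cj (c * d) a = a
    rw [cj_mul, hd, hc]
  one_mem' := cj_one a
  inv_mem' := by
    intro c hc
    change cj c⁻¹ a = a
    conv_lhs => rw [← (show cj c a = a from hc)]
    rw [← cj_mul, inv_mul_cancel, cj_one]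

theorem mem_fixS {a : G → k} {c : G} : c ∈ fixS a ↔ cj c a = a := Iff.rfl

theorem le_fixS_of_inv {H : Subgroup G} {a : G → k} (h : ∀ c ∈ H, ∀ x, a (c * x * c⁻¹) = a x) :
    H ≤ fixS a := fun c hc => cj_eq_iff.2 (h c hc)

/-- elements of `H` and of `zpowers z` -/
theorem mul_mem_coset {H : Subgroup G} {z x : G} (hz : z ∈ normalizer (H : Set G)) :
    z * x * z⁻¹ * z⁻¹ ∈ H ↔ x * z⁻¹ ∈ H := by
  have h1 := (mem_normalizer_iff.1 hz) (x * z⁻¹)
  rw [h1]
  have h2 : z * x * z⁻¹ * z⁻¹ = z * (x * z⁻¹) * z⁻¹ := by group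
  rw [h2]

theorem conj_mem_coset {H : Subgroup G} {z h x : G} (hz : z ∈ normalizer (H : Set G))
    (hh : h ∈ H) : h * x * h⁻¹ * z⁻¹ ∈ H ↔ x * z⁻¹ ∈ H := by
  have h1 : z * h⁻¹ * z⁻¹ ∈ H := (mem_normalizer_iff.1 hz _).1 (inv_mem hh)
  have h2 : h * x * h⁻¹ * z⁻¹ = h * (x * z⁻¹) * (z * h⁻¹ * z⁻¹) := by group
  rw [h2, Subgroup.mul_mem_cancel_right _ h1, Subgroup.mul_mem_cancel_left _ hh]

theorem conj_mem_coset' {H : Subgroup G} {z y x : G} (hy : y ∈ normalizer (H : Set G))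
    (hyz : y * z * y⁻¹ * z⁻¹ ∈ H) : y⁻¹ * x * y * z⁻¹ ∈ H ↔ x * z⁻¹ ∈ H := by
  have h1 := (mem_normalizer_iff.1 hy) (y⁻¹ * x * y * z⁻¹)
  rw [h1]
  have h2 : y * (y⁻¹ * x * y * z⁻¹) * y⁻¹ = (x * z⁻¹) * (y * z * y⁻¹ * z⁻¹)⁻¹ := by group
  rw [h2, Subgroup.mul_mem_cancel_right _ (inv_mem hyz)]

end basic

section reg

variable (p : ℕ) [hp : Fact p.Prime] {G : Type} [Group G] [Finite G]

/-- in `H⟨z⟩` the `p`-parts of all elements lie in `H` -/
theorem pp_mem {H : Subgroup G} {z : G} (hz : z ∈ normalizer (H : Set G)) {m : ℕ}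
    (hm : ¬ p ∣ m) (hzm : z ^ m ∈ H) {x : G} (hx : x ∈ H ⊔ zpowers z) :
    x * (pr p x)⁻¹ ∈ H := by
  set K : Subgroup G := H ⊔ zpowers z with hK
  have hHK : H ≤ K := le_sup_left
  have hzK : z ∈ K := (le_sup_right : zpowers z ≤ K) (mem_zpowers z)
  have hKn : K ≤ normalizer (H : Set G) := by
    rw [hK, sup_le_iff]
    exact ⟨le_normalizer, by rw [zpowers_le]; exact hz⟩
  have hn : (H.subgroupOf K).Normal := normal_subgroupOf_of_le_normalizer hKn
  have hpow : ∀ y : K, ((y : K ⧸ H.subgroupOf K)) ∈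
      zpowers (((⟨z, hzK⟩ : K) : K ⧸ H.subgroupOf K)) := by
    rintro ⟨y, hy⟩
    have h1 : y ∈ (comap (QuotientGroup.mk' (H.subgroupOf K))
        (zpowers (((⟨z, hzK⟩ : K) : K ⧸ H.subgroupOf K)))).map K.subtype := by
      have h2 : K ≤ (comap (QuotientGroup.mk' (H.subgroupOf K))
          (zpowers (((⟨z, hzK⟩ : K) : K ⧸ H.subgroupOf K)))).map K.subtype := by
        conv_lhs => rw [hK]
        rw [sup_le_iff]
        constructor
        · intro h hh
          refine ⟨⟨h, hHK hh⟩, ?_, rfl⟩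
          have h3 : ((⟨h, hHK hh⟩ : K) : K ⧸ H.subgroupOf K) = 1 :=
            (QuotientGroup.eq_one_iff _).2 (show (⟨h, hHK hh⟩ : K) ∈ H.subgroupOf K from hh)
          change ((⟨h, hHK hh⟩ : K) : K ⧸ H.subgroupOf K) ∈
            zpowers (((⟨z, hzK⟩ : K) : K ⧸ H.subgroupOf K))
          rw [h3]
          exact one_mem _
        · rw [zpowers_le]
          exact ⟨⟨z, hzK⟩, mem_zpowers _, rfl⟩
      exact h2 hy
    obtain ⟨⟨y', hy'⟩, h2, h3⟩ := h1
    change y' = y at h3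
    subst h3
    exact h2
  have hxm : ∀ y : K, y ^ m ∈ H.subgroupOf K := by
    intro y
    rw [← QuotientGroup.eq_one_iff]
    obtain ⟨i, hi⟩ := mem_zpowers_iff.1 (hpow y)
    have h1 : ((⟨z, hzK⟩ : K) : K ⧸ H.subgroupOf K) ^ m = 1 := by
      rw [← QuotientGroup.mk_pow, QuotientGroup.eq_one_iff]
      exact hzm
    rw [QuotientGroup.mk_pow, ← hi, ← zpow_natCast, zpow_comm, zpow_natCast, h1, one_zpow]
  obtain ⟨n, hn'⟩ : ∃ n : ℕ, (x * (pr p x)⁻¹) ^ p ^ n = 1 := P179C.pr_sing x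
  have hmem : x * (pr p x)⁻¹ ∈ K := mul_mem hx (inv_mem (pow_mem hx _))
  have h1 : (x * (pr p x)⁻¹) ^ m ∈ H := hxm ⟨_, hmem⟩
  have hcop : Nat.Coprime m (p ^ n) := by
    apply Nat.Coprime.pow_right
    rw [Nat.coprime_comm]
    exact (Nat.Prime.coprime_iff_not_dvd hp.out).2 hm
  have h2 := Nat.gcd_eq_gcd_ab m (p ^ n)
  rw [hcop] at h2
  have h3 : x * (pr p x)⁻¹ = ((x * (pr p x)⁻¹) ^ m) ^ (m.gcdA (p ^ n)) *
      ((x * (pr p x)⁻¹) ^ p ^ n) ^ (m.gcdB (p ^ n)) := by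
    rw [← zpow_natCast, ← zpow_natCast, ← zpow_mul, ← zpow_mul, ← zpow_add, ← h2]
    simp
  rw [h3, hn', one_zpow, mul_one]
  exact zpow_mem h1 _

theorem pr_mem_coset {H : Subgroup G} {z : G} (hz : z ∈ normalizer (H : Set G)) {m : ℕ}
    (hm : ¬ p ∣ m) (hzm : z ^ m ∈ H) {x : G} (hx : x ∈ H ⊔ zpowers z) :
    pr p x * z⁻¹ ∈ H ↔ x * z⁻¹ ∈ H := by
  have h1 := pp_mem p hz hm hzm hx
  have h2 : x * z⁻¹ = x * (pr p x)⁻¹ * (pr p x * z⁻¹) := by group
  rw [h2, Subgroup.mul_mem_cancel_left _ h1]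

theorem mem_sup_of_coset {H : Subgroup G} {z x : G} (h : x * z⁻¹ ∈ H) : x ∈ H ⊔ zpowers z := by
  have h1 : x = x * z⁻¹ * z := by group
  rw [h1]
  exact mul_mem ((le_sup_left : H ≤ H ⊔ zpowers z) h)
    ((le_sup_right : zpowers z ≤ H ⊔ zpowers z) (mem_zpowers z))

end reg

section main

variable {k : Type u} [Field k] {G : Type} [Group G] [Fintype G]

theorem conv_mem_Mz {H : Subgroup G} {z : G} {e f : G → k} (he : InvOn H e)
    (hee : conv e e = e) (hf : ∀ g, f g ≠ 0 → g * z⁻¹ ∈ H)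
    (hf' : ∀ h ∈ H, ∀ g, f (h * g * h⁻¹) = f g) : conv e f ∈ Mz H z e := by
  refine ⟨fun g hg => ?_, fun h hh g => ?_, ?_⟩
  · obtain ⟨x, -, hx⟩ := Finset.exists_ne_zero_of_sum_ne_zero hg
    have h1 : x ∈ H := by
      by_contra hcon
      exact hx (by rw [he.2 x hcon, zero_mul])
    have h2 := hf _ (right_ne_zero_of_mul hx)
    have h3 : g * z⁻¹ = x * (x⁻¹ * g * z⁻¹) := by group
    rw [h3]
    exact mul_mem h1 h2
  · have h1 : cj h⁻¹ (conv e f) = conv e f := by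
      rw [cj_conv, cj_eq_of_inv fun x => he.1 _ (inv_mem hh) x,
        cj_eq_of_inv fun x => hf' _ (inv_mem hh) x]
    conv_rhs => rw [← h1]
    unfold cj
    rw [inv_inv]
  · rw [← P179I.conv_assoc', hee]

/-- (LE) on a coset -/
theorem conv_pr_coset (p : ℕ) [hp : Fact p.Prime] [IsAlgClosed k] [CharP k p]
    {H : Subgroup G} {z : G} (hz : z ∈ normalizer (H : Set G)) {m : ℕ}
    (hm : ¬ p ∣ m) (hzm : z ^ m ∈ H) {e f : G → k} (he : InvOn H e) (hez : cj z e = e)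
    (hf : ∀ g, f g ≠ 0 → g * z⁻¹ ∈ H) (hf' : ∀ h ∈ H, ∀ g, f (h * g * h⁻¹) = f g)
    (hfz : cj z f = f) (hfp : ∀ g, g * z⁻¹ ∈ H → f (pr p g) = f g) {g : G}
    (hg : g * z⁻¹ ∈ H) : conv e f (pr p g) = conv e f g := by
  set K : Subgroup G := H ⊔ zpowers z with hK
  have hHK : H ≤ K := le_sup_left
  have hzK : z ∈ K := (le_sup_right : zpowers z ≤ K) (mem_zpowers z)
  have hgK : ∀ x : G, x * z⁻¹ ∈ H → x ∈ K := fun x hx => mem_sup_of_coset hx
  have heK : ext K (fun x : K => e x) = e := by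
    funext x
    by_cases hx : x ∈ K
    · rw [ext_of_mem K _ hx]
    · rw [ext_of_not_mem K _ hx, he.2 x fun h => hx (hHK h)]
  have hfK : ext K (fun x : K => f x) = f := by
    funext x
    by_cases hx : x ∈ K
    · rw [ext_of_mem K _ hx]
    · rw [ext_of_not_mem K _ hx]
      by_contra hcon
      exact hx (hgK x (hf x fun h => hcon h.symm))
  have hcv : ∀ x : K, conv e f x = conv (fun x : K => e x) (fun x : K => f x) x := by
    intro x
    conv_lhs => rw [← heK, ← hfK, ← ext_conv]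
    rw [P179Y.ext_coe]
  have hCFe : IsCF (fun x : K => e x) := by
    have h1 : K ≤ fixS e := by
      rw [hK, sup_le_iff]
      exact ⟨le_fixS_of_inv he.1, by rw [zpowers_le]; exact hez⟩
    intro c x
    exact cj_eq_iff.1 (h1 c.2) x
  have hCFf : IsCF (fun x : K => f x) := by
    have h1 : K ≤ fixS f := by
      rw [hK, sup_le_iff]
      exact ⟨le_fixS_of_inv hf', by rw [zpowers_le]; exact hfz⟩
    intro c x
    exact cj_eq_iff.1 (h1 c.2) x
  have hcoe : ∀ x : K, ((pr p x : K) : G) = pr p (x : G) := fun x =>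
    (P179C.pr_map K.subtype (Subgroup.subtype_injective K) x).symm
  have hfpr : ∀ x : K, f ((pr p x : K) : G) = f x := by
    intro x
    rw [hcoe]
    by_cases hx : (x : G) * z⁻¹ ∈ H
    · exact hfp _ hx
    · have h1 : ¬ pr p (x : G) * z⁻¹ ∈ H := by
        rwa [pr_mem_coset p hz hm hzm x.2]
      rw [not_imp_comm.1 (hf _) hx, not_imp_comm.1 (hf _) h1]
  have h1 := conv_pr p hCFe hCFf hfpr ⟨g, hgK g hg⟩
  rw [← hcv, ← hcv, hcoe] at h1
  exact h1

variable {C H : Subgroup G} {z : G} {e eH : G → k}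

/-- the map `F ↦ e_H * F|_{Hz}` on `M_z(C, e)` -/
noncomputable def Phi (hHC : H ≤ C) (hz : z ∈ normalizer (H : Set G)) (he : InvOn H eH)
    (hee : conv eH eH = eH) : Mz C z e →ₗ[k] Mz H z eH where
  toFun F := ⟨conv eH (cutz H z F.1), conv_mem_Mz he hee
    (fun g hg => by
      by_contra hcon
      exact hg (cutz_of_not hcon))
    (fun h hh g => by
      unfold cutz
      rw [F.2.2.1 h (hHC hh) g]
      simp only [conj_mem_coset hz hh])⟩
  map_add' a b := by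
    apply Subtype.ext
    change conv eH (cutz H z (a.1 + b.1)) = conv eH (cutz H z a.1) + conv eH (cutz H z b.1)
    rw [← conv_add']
    congr 1
    funext g
    unfold cutz
    rw [Pi.add_apply, Pi.add_apply]
    split_ifs
    · rfl
    · rw [add_zero]
  map_smul' c a := by
    apply Subtype.ext
    change conv eH (cutz H z (c • a.1)) = c • conv eH (cutz H z a.1)
    rw [← conv_smul']
    congr 1
    funext g
    unfold cutz
    rw [Pi.smul_apply, Pi.smul_apply]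
    split_ifs
    · rfl
    · rw [smul_zero]

/-- **STEP** -/
theorem step (p : ℕ) [hp : Fact p.Prime] [IsAlgClosed k] [CharP k p] (hHC : H ≤ C)
    (hz : z ∈ normalizer (H : Set G)) {m : ℕ} (hm : ¬ p ∣ m) (hzm : z ^ m ∈ H)
    (he : InvOn H eH) (hee : conv eH eH = eH) (hez : cj z eH = eH)
    (honto : ∀ f ∈ Mz H z eH, ∃ F ∈ Mz C z e, conv eH (cutz H z F) = f)
    (hdim : Module.finrank k (Mz C z e) ≤ Module.finrank k (Mz H z eH))
    {ψ : G → k} (hψ : ψ ∈ Mz C z e) (hψ0 : ψ ≠ 0)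
    (hpr : ∀ g, g * z⁻¹ ∈ C → ψ (pr p g) = ψ g) (hψz : cj z ψ = ψ) :
    ∃ ψ' ∈ Mz H z eH, ψ' ≠ 0 ∧ (∀ g, g * z⁻¹ ∈ H → ψ' (pr p g) = ψ' g) ∧ cj z ψ' = ψ' ∧
      ∀ y ∈ normalizer (H : Set G), y * z * y⁻¹ * z⁻¹ ∈ H → cj y eH = eH →
        ∀ a : k, cj y ψ = a • ψ → cj y ψ' = a • ψ' := by
  have hcut : ∀ y ∈ normalizer (H : Set G), y * z * y⁻¹ * z⁻¹ ∈ H → ∀ a : k, cj y ψ = a • ψ →
      cj y (cutz H z ψ) = a • cutz H z ψ := by
    intro y hy hyz a ha
    funext g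
    have h1 : cj y ψ g = a * ψ g := by rw [ha]; rfl
    unfold cj at h1
    change cutz H z ψ (y⁻¹ * g * y) = a * cutz H z ψ g
    unfold cutz
    simp only [conj_mem_coset' hy hyz]
    split_ifs
    · exact h1
    · rw [mul_zero]
  have hcomm : ∀ y ∈ normalizer (H : Set G), y * z * y⁻¹ * z⁻¹ ∈ H → cj y eH = eH →
        ∀ a : k, cj y ψ = a • ψ → cj y (conv eH (cutz H z ψ)) = a • conv eH (cutz H z ψ) := by
    intro y hy hyz hye a ha
    rw [cj_conv, hye, hcut y hy hyz a ha, conv_smul']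
  have hzz : cj z (cutz H z ψ) = cutz H z ψ := by
    have h1 := hcut z hz (by
      have : z * z * z⁻¹ * z⁻¹ = 1 := by group
      rw [this]
      exact one_mem _) 1 (by rw [hψz, one_smul])
    rwa [one_smul] at h1
  have hsurj : Function.Surjective (Phi (e := e) hHC hz he hee) := by
    rintro ⟨f, hf⟩
    obtain ⟨F, hF, hFf⟩ := honto f hf
    exact ⟨⟨F, hF⟩, Subtype.ext hFf⟩
  have hinj : Function.Injective (Phi (e := e) hHC hz he hee) := by
    have h1 : Module.finrank k (Mz C z e) = Module.finrank k (Mz H z eH) :=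
      le_antisymm hdim (LinearMap.finrank_le_finrank_of_surjective hsurj)
    exact (LinearMap.injective_iff_surjective_of_finrank_eq_finrank h1).2 hsurj
  have hne : conv eH (cutz H z ψ) ≠ 0 := by
    intro h0
    have h1 : Phi (e := e) hHC hz he hee ⟨ψ, hψ⟩ = 0 := Subtype.ext h0
    have h2 := hinj (h1.trans (map_zero _).symm)
    exact hψ0 (congrArg Subtype.val h2)
  have hsupp : ∀ g, cutz H z ψ g ≠ 0 → g * z⁻¹ ∈ H := fun g hg => by
    by_contra hcon
    exact hg (cutz_of_not hcon)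
  have hinv : ∀ h ∈ H, ∀ g, cutz H z ψ (h * g * h⁻¹) = cutz H z ψ g := fun h hh g => by
    unfold cutz
    rw [hψ.2.1 h (hHC hh) g]
    simp only [conj_mem_coset hz hh]
  refine ⟨conv eH (cutz H z ψ), conv_mem_Mz he hee hsupp hinv, hne, ?_, ?_, hcomm⟩
  · intro g hg
    refine conv_pr_coset p hz hm hzm he hez hsupp hinv hzz ?_ hg
    intro x hx
    rw [cutz_of hx, cutz_of ((pr_mem_coset p hz hm hzm (mem_sup_of_coset hx)).2 hx)]
    exact hpr x (hHC hx)
  · rw [cj_conv, hez, hzz]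

end main

end P179H364
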