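import Vale.Agent.P179.R2.H843.SolvAct
import Vale.Agent.P179.R2.H364.KForm2
import Vale.Agent.P179.H905.K4

/-!
# Actions with few fixed points
-/

namespace P179H364

open Subgroup P179H292 P179R P179Y

open P179B (inertialGroup inertialIndex regularElements FewFixed)

open scoped Classical

universe u

section Act

variable {G X : Type*} [Group G] [Group X] {K S : Subgroup G} {D' T' : Subgroup X}

/-- at most `p / 2` automorphisms -/
theorem fewFixed_of_half [Finite G] {p : ℕ} (h : 2 * (centralizer (K : Set G)).relIndex S ≤ p) :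
    FewFixed p K S := by
  obtain ⟨H, hH, hcov⟩ := P179I.exists_cover K S
  have hpos : 0 < (centralizer (K : Set G)).relIndex S := Nat.pos_of_ne_zero
    (Subgroup.index_ne_zero_of_finite (H := (centralizer (K : Set G)).subgroupOf S))
  refine ⟨_, H, hH, fun u hu _ hn => hcov u hu hn, ?_⟩
  omega

/-- transfer of `FewFixed` -/
theorem fewFixed_act {p : ℕ} (hfin : Finite K) (hN : S ≤ normalizer (K : Set G))
    (hact : ActSub K S D' T') (h : FewFixed p K S) : FewFixed p D' T' := by
  have hK : ∀ t ∈ S, ∀ x ∈ K, t * x * t⁻¹ ∈ K := fun t ht x hx =>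
    (mem_normalizer_iff.1 (hN ht) x).1 hx
  have hidx := P179H843.relIndex_act_fin hfin hK hact
  obtain ⟨s, H, hH, hcov, hs⟩ := h
  obtain ⟨e, he⟩ := act_spec hK hact
  refine ⟨s, fun i => ((H i).subgroupOf K).map ((D' : Subgroup X).subtype.comp
    e.toMonoidHom), ?_, ?_, by omega⟩
  · intro i hle
    apply hH i
    intro x hx
    obtain ⟨y, hy, hyx⟩ := hle (e ⟨x, hx⟩).2
    have h1 : e y = e ⟨x, hx⟩ := Subtype.ext hyx
    have h2 := e.injective h1
    rw [h2] at hy
    exact mem_subgroupOf.1 hy
  · rintro u hu hu1 ⟨n', hn', hnu, hnc⟩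
    obtain ⟨n, hn, hne, hc⟩ := he n' hn'
    obtain ⟨x, hx⟩ := e.surjective ⟨u, hu⟩
    have hx1 : (x : G) ≠ 1 := by
      intro h
      apply hu1
      have h1 : x = 1 := Subtype.ext h
      rw [h1, map_one] at hx
      exact (congrArg Subtype.val hx).symm
    have h2 : (x : G) = n * x * n⁻¹ := (hne x x).2 (by rw [hx]; exact hnu.symm)
    obtain ⟨i, hi⟩ := hcov x x.2 hx1 ⟨n, hn, h2.symm, fun h3 => hnc (hc.1 h3)⟩
    refine ⟨i, x, mem_subgroupOf.2 hi, ?_⟩
    exact congrArg Subtype.val hx

end Act

section Main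

variable {p : ℕ} [hp : Fact p.Prime] {k : Type u} [Field k] [IsAlgClosed k] [hk : CharP k p]
  (red : integralClosure ℤ ℂ →+* k)

/-- the equality for a defect group which satisfies `FewFixed` with the action of the inertial
group -/
theorem eq_of_fewFixed {G : Type} [Group G] [Finite G]
    {B : MonoidAlgebra k G} (hB : P179B.IsBlock B) {D : Subgroup G}
    (hD : P179B.IsDefectGroup B D) (hab : ∀ x ∈ D, ∀ y ∈ D, x * y = y * x)
    {β : MonoidAlgebra k (centralizer (D : Set G))} (hβ : P179B.IsBlock β)
    (hβB : P179B.InducesTo β B) (h : FewFixed p D (inertialGroup D β)) :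
    P179B.numSimpleIn B = P179B.numWeightsIn p red B := by
  have := Fintype.ofFinite G
  rw [P179B.numSimpleIn_eq, P179B.numWeightsIn_eq]
  have hβB' := (P179B.inducesTo_iff β B).1 hβB
  obtain ⟨s, H, hH, hcov, hs⟩ := h
  refine P179I.equality_cover red hB hD hab hβ hβB' H hH ?_ hs
  intro u hu hu1 hun
  refine hcov u hu hu1 ?_
  by_contra hcon
  push Not at hcon
  exact hun ⟨hu, hcon⟩

/-- **the equality for the groups `K` with the action of `S` which satisfy `FewFixed`** -/
theorem eqForAct_of_fewFixed {G : Type} [Group G] [Finite G]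
    {K S : Subgroup G} (hS : S ≤ normalizer (K : Set G)) (h : FewFixed p K S) :
    EqForAct p red K S := by
  intro X _ _ B D β hB hD hab hβ hβB hact
  have h1 := eq_of_fewFixed red hB hD hab hβ ((P179B.inducesTo_iff β B).2 hβB)
    (fewFixed_act inferInstance hS hact h)
  rwa [P179B.numSimpleIn_eq, P179B.numWeightsIn_eq] at h1

end Main

end P179H364
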