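import Vale.Agent.P179.R2.H364.ActT
import Vale.Agent.P179.R2.H443.FinB
import Vale.Agent.P179.R2.H12.M4Free
import Vale.Agent.P179.R2.H292.FinalD
import Vale.Agent.P179.R2.H452.M7

/-!
# Conditions on `K = [D, T]`: free action, regular cosets, faithful action on the powers
-/

namespace P179H364

open Subgroup P179H524 P179Y P179H292

open P179B (IsBlock IsDefectGroup InducesTo numSimpleIn numWeightsIn inertialGroup inertialIndex
  regularElements RegularCoset PowerFaithful)

open scoped Classical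

universe u

section

variable {p : ℕ} [hp : Fact p.Prime] {k : Type u} [Field k] [IsAlgClosed k] [hk : CharP k p]
  (red : integralClosure ℤ ℂ →+* k) {G : Type} [Group G] [Finite G]

omit [IsAlgClosed k] [Finite G] in
/-- `[D, T]` is normalised by `T` -/
theorem comm_conj_mem {D : Subgroup G} {β : MonoidAlgebra k (centralizer (D : Set G))} :
    ∀ t ∈ inertialGroup D β, ∀ x ∈ (⁅inertialGroup D β, D⁆ : Subgroup G),
      t * x * t⁻¹ ∈ (⁅inertialGroup D β, D⁆ : Subgroup G) := by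
  intro t ht x hx
  have hN : t ∈ normalizer (D : Set G) := ht.1
  have h1 : (⁅inertialGroup D β, D⁆ : Subgroup G).map (MulAut.conj t).toMonoidHom =
      ⁅inertialGroup D β, D⁆ := by
    rw [map_commutator]
    congr 1
    · ext y
      constructor
      · rintro ⟨z, hz, rfl⟩
        exact mul_mem (mul_mem ht hz) (inv_mem ht)
      · intro hy
        refine ⟨t⁻¹ * y * t, mul_mem (mul_mem (inv_mem ht) hy) ht, ?_⟩
        change t * (t⁻¹ * y * t) * t⁻¹ = y
        group
    · ext y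
      constructor
      · rintro ⟨z, hz, rfl⟩
        exact (mem_normalizer_iff.1 hN z).1 hz
      · intro hy
        refine ⟨t⁻¹ * y * t, ?_, ?_⟩
        · have := (mem_normalizer_iff.1 (inv_mem hN) y).1 hy
          rwa [inv_inv] at this
        · change t * (t⁻¹ * y * t) * t⁻¹ = y
          group
  rw [← h1]
  exact ⟨x, hx, rfl⟩

/-- the block for `[D, T]`, in terms of the definitions of the statements -/
theorem exists_hyp {B : MonoidAlgebra k G} (hB : IsBlock B) {D : Subgroup G}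
    (hD : IsDefectGroup B D) (hab : ∀ a ∈ D, ∀ b ∈ D, a * b = b * a)
    {β : MonoidAlgebra k (centralizer (D : Set G))} (hβ : IsBlock β) (hβB : InducesTo β B) :
    ∃ (X : Type) (_ : Group X) (_ : Finite X) (B' : MonoidAlgebra k X) (D' : Subgroup X)
      (β' : MonoidAlgebra k (centralizer (D' : Set X))), IsBlock B' ∧ IsDefectGroup B' D' ∧
      (∀ a ∈ D', ∀ b ∈ D', a * b = b * a) ∧ IsBlock β' ∧ InducesTo β' B' ∧
      numSimpleIn B = numSimpleIn B' ∧ numWeightsIn p red B = numWeightsIn p red B' ∧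
      ActSub (⁅inertialGroup D β, D⁆ : Subgroup G) (inertialGroup D β) D'
        (inertialGroup D' β') := by
  obtain ⟨X, iX, fX, B', D', β', h1, h2, h3, h4, h5, h6, h7, h8⟩ :=
    exists_hyp_block red _ G rfl B D β hB hD hab hβ ((P179B.inducesTo_iff β B).1 hβB)
  refine ⟨X, iX, fX, B', D', β', h1, h2, h3, h4, (P179B.inducesTo_iff β' B').2 h5, ?_, ?_, h8⟩
  · rw [P179B.numSimpleIn_eq, P179B.numSimpleIn_eq, h6]
  · rw [P179B.numWeightsIn_eq, P179B.numWeightsIn_eq, h7]

include hp in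
/-- the elements of `T` which centralise `[D, T]` centralise `D` -/
theorem cent_comm_iff {B : MonoidAlgebra k G} (hB : IsBlock B) {D : Subgroup G}
    (hD : IsDefectGroup B D) (hab : ∀ a ∈ D, ∀ b ∈ D, a * b = b * a)
    {β : MonoidAlgebra k (centralizer (D : Set G))} (hβ : IsBlock β) (hβB : InducesTo β B)
    {t : G} (ht : t ∈ inertialGroup D β) :
    t ∈ centralizer ((⁅inertialGroup D β, D⁆ : Subgroup G) : Set G) ↔
      t ∈ centralizer (D : Set G) := by
  have := Fintype.ofFinite G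
  have hDp := isPGroup_of_defect (p := p) hB hD
  have hTN : inertialGroup D β ≤ normalizer (D : Set G) := fun n hn => hn.1
  obtain ⟨l, hl, hlz, hlb⟩ := exists_BP_of_subblock (p := p) hB hD hab hβ
    ((P179B.inducesTo_iff β B).1 hβB)
  have hnd : ¬ p ∣ (centralizer (D : Set G)).relIndex (inertialGroup D β) := by
    rw [← stabT_eq_inertialGroup hβ hlb]
    exact hT_of_block hB hD hDp hab hl hlz
  constructor
  · intro h
    rw [mem_centralizer_iff] at h ⊢
    intro d hd
    obtain ⟨y, hy, hyfix, z, hz, rfl⟩ := mem_fix_mul hDp hab hTN hnd hd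
    have h1 := h z hz
    have h2 : t * y = y * t := by
      have := hyfix t ht
      rw [mul_inv_eq_iff_eq_mul] at this
      exact this
    rw [mul_assoc, h1, ← mul_assoc, ← h2, mul_assoc]
  · intro h
    exact centralizer_le (comm_le hTN) h

include hp in
theorem relIndex_comm {B : MonoidAlgebra k G} (hB : IsBlock B) {D : Subgroup G}
    (hD : IsDefectGroup B D) (hab : ∀ a ∈ D, ∀ b ∈ D, a * b = b * a)
    {β : MonoidAlgebra k (centralizer (D : Set G))} (hβ : IsBlock β) (hβB : InducesTo β B) :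
    (centralizer ((⁅inertialGroup D β, D⁆ : Subgroup G) : Set G)).relIndex (inertialGroup D β) =
      inertialIndex D β := by
  have h1 : (centralizer ((⁅inertialGroup D β, D⁆ : Subgroup G) : Set G)).subgroupOf
      (inertialGroup D β) = (centralizer (D : Set G)).subgroupOf (inertialGroup D β) := by
    ext t
    exact cent_comm_iff (p := p) hB hD hab hβ hβB t.2
  unfold inertialIndex relIndex
  rw [h1]

/-- **free action of the inertial quotient on `[D, T]`: the congruence modulo the exponent of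
`[D, T]`** -/
theorem modEq_freeK {B : MonoidAlgebra k G} (hB : IsBlock B)
    {D : Subgroup G} (hD : IsDefectGroup B D) (hab : ∀ a ∈ D, ∀ b ∈ D, a * b = b * a)
    {β : MonoidAlgebra k (centralizer (D : Set G))} (hβ : IsBlock β) (hβB : InducesTo β B)
    (hfree : ∀ u ∈ (⁅inertialGroup D β, D⁆ : Subgroup G), u ≠ 1 → u ∈ regularElements D β) :
    numSimpleIn B ≡ numWeightsIn p red B
      [MOD Monoid.exponent (⁅inertialGroup D β, D⁆ : Subgroup G)] := by
  obtain ⟨X, _, _, B', D', β', h1, h2, h3, h4, h5, h6, h7, h8⟩ := exists_hyp red hB hD hab hβ hβB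
  rw [h6, h7, ← exponent_act h8]
  refine P179H443.free_modEq red (P179H12.m4free p k red) h1 h2 h3 h4 h5 fun u hu hu1 => ?_
  exact ⟨hu, free_act comm_conj_mem h8 (fun u hu hu1 t ht htu =>
    (cent_comm_iff (p := p) hB hD hab hβ hβB ht).2 ((hfree u hu hu1).2 t ht htu)) u hu hu1⟩

/-- **free action of the inertial quotient on `[D, T]`: the equality** -/
theorem eq_freeK (hp2 : p ≠ 2) {B : MonoidAlgebra k G} (hB : IsBlock B)
    {D : Subgroup G} (hD : IsDefectGroup B D) (hab : ∀ a ∈ D, ∀ b ∈ D, a * b = b * a)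
    {β : MonoidAlgebra k (centralizer (D : Set G))} (hβ : IsBlock β) (hβB : InducesTo β B)
    (hfree : ∀ u ∈ (⁅inertialGroup D β, D⁆ : Subgroup G), u ≠ 1 → u ∈ regularElements D β)
    (h : inertialIndex D β < Monoid.exponent (⁅inertialGroup D β, D⁆ : Subgroup G) ∨
      (numWeightsIn p red B ≤ Monoid.exponent (⁅inertialGroup D β, D⁆ : Subgroup G) ∧
        inertialIndex D β < Monoid.exponent (⁅inertialGroup D β, D⁆ : Subgroup G) +
            numWeightsIn p red B) ∨
      Nat.card {x : G // x ∈ (⁅inertialGroup D β, D⁆ : Subgroup G) ∧ x ^ p = 1} ≤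
        Monoid.exponent (⁅inertialGroup D β, D⁆ : Subgroup G)) :
    numSimpleIn B = numWeightsIn p red B := by
  obtain ⟨X, _, _, B', D', β', h1, h2, h3, h4, h5, h6, h7, h8⟩ := exists_hyp red hB hD hab hβ hβB
  have hle : inertialIndex D' β' ≤ inertialIndex D β := by
    rw [← relIndex_comm (p := p) hB hD hab hβ hβB]
    exact relIndex_act comm_conj_mem h8
  rw [h7] at h
  rw [h6, h7]
  refine P179H443.free_eq red (P179H12.m4free p k red) hp2 h1 h2 h3 h4 h5 (fun u hu hu1 => ?_) ?_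
  · exact ⟨hu, free_act comm_conj_mem h8 (fun u hu hu1 t ht htu =>
      (cent_comm_iff (p := p) hB hD hab hβ hβB ht).2 ((hfree u hu hu1).2 t ht htu)) u hu hu1⟩
  · rw [exponent_act h8, card_omega_act p h8]
    rcases h with h | ⟨h, h'⟩ | h
    · exact Or.inl (hle.trans_lt h)
    · exact Or.inr (Or.inl ⟨h, hle.trans_lt h'⟩)
    · exact Or.inr (Or.inr h)

/-- a regular coset in `[D, T]` gives a regular coset in `D'` -/
theorem regCoset_act {B : MonoidAlgebra k G} (hB : IsBlock B)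
    {D : Subgroup G} (hD : IsDefectGroup B D) (hab : ∀ a ∈ D, ∀ b ∈ D, a * b = b * a)
    {β : MonoidAlgebra k (centralizer (D : Set G))} (hβ : IsBlock β) (hβB : InducesTo β B)
    {X : Type} [Group X] [Finite X] {D' : Subgroup X}
    {β' : MonoidAlgebra k (centralizer (D' : Set X))}
    (h8 : ActSub (⁅inertialGroup D β, D⁆ : Subgroup G) (inertialGroup D β) D'
        (inertialGroup D' β')) {j o : ℕ} {w : G}
    (hj : 1 ≤ j) (ho0 : 1 ≤ o) (hw : w ∈ (⁅inertialGroup D β, D⁆ : Subgroup G))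
    (ho : ∀ i : ℕ, (∃ d ∈ (⁅inertialGroup D β, D⁆ : Subgroup G), w ^ i = d ^ p ^ j) ↔ o ∣ i)
    (hreg : ∀ n ∈ inertialGroup D β,
      (∃ d ∈ (⁅inertialGroup D β, D⁆ : Subgroup G), n * w * n⁻¹ * w⁻¹ = d ^ p ^ j) →
      n ∈ centralizer (D : Set G))
    (hii : inertialIndex D β * Nat.card (⁅inertialGroup D β, D⁆ : Subgroup G) <
      p ^ (2 * j) * Nat.card {u : G // u ∈ (⁅inertialGroup D β, D⁆ : Subgroup G) ∧
        u ∈ regularElements D β}) :
    ∃ w' : X, RegularCoset p j o D' β' w' := by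
  obtain ⟨e, he⟩ := act_spec comm_conj_mem h8
  have hpow : ∀ (x y : (⁅inertialGroup D β, D⁆ : Subgroup G)) (i m : ℕ),
      (x : G) ^ i = (y : G) ^ m ↔ (e x : X) ^ i = (e y : X) ^ m := by
    intro x y i m
    constructor
    · intro h
      have h1 : x ^ i = y ^ m := Subtype.ext h
      have h2 := congrArg (fun z => ((e z : D') : X)) h1
      simpa only [map_pow, SubmonoidClass.coe_pow] using h2
    · intro h
      have h1 : e (x ^ i) = e (y ^ m) := by
        apply Subtype.ext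
        rw [map_pow, map_pow]
        exact h
      exact congrArg Subtype.val (e.injective h1)
  have hle : inertialIndex D' β' ≤ inertialIndex D β := by
    rw [← relIndex_comm (p := p) hB hD hab hβ hβB]
    exact relIndex_act comm_conj_mem h8
  refine ⟨e ⟨w, hw⟩, hj, ho0, (e _).2, fun i => ?_, fun n hn => ?_, ?_⟩
  · rw [← ho i]
    constructor
    · rintro ⟨d, hd, h⟩
      obtain ⟨y, hy⟩ := e.surjective ⟨d, hd⟩
      refine ⟨y, y.2, (hpow ⟨w, hw⟩ y i (p ^ j)).2 ?_⟩
      rw [hy]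
      exact h
    · rintro ⟨d, hd, h⟩
      exact ⟨e ⟨d, hd⟩, (e _).2, (hpow ⟨w, hw⟩ ⟨d, hd⟩ i (p ^ j)).1 h⟩
  · rintro ⟨d, hd, h⟩
    obtain ⟨t, ht, hte, hc⟩ := he n hn
    obtain ⟨y, hy⟩ := e.surjective ⟨d, hd⟩
    refine hc.1 ((cent_comm_iff (p := p) hB hD hab hβ hβB ht).2 (hreg t ht ⟨y, y.2, ?_⟩))
    have h1 : (((y ^ p ^ j * ⟨w, hw⟩ : (⁅inertialGroup D β, D⁆ : Subgroup G))) : G) =
        t * w * t⁻¹ := by
      rw [hte ⟨w, hw⟩, map_mul, map_pow, hy]
      change d ^ p ^ j * (e ⟨w, hw⟩ : X) = _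
      rw [← h, inv_mul_cancel_right]
    change (y : G) ^ p ^ j * w = t * w * t⁻¹ at h1
    rw [← h1, mul_inv_cancel_right]
  · rw [card_act h8]
    refine lt_of_le_of_lt (Nat.mul_le_mul_right _ hle) (lt_of_lt_of_le hii ?_)
    refine Nat.mul_le_mul_left _ ?_
    refine Nat.card_le_card_of_injective (fun u => (⟨e ⟨u, u.2.1⟩, (e _).2, fun n hn hnu => ?_⟩ :
      regularElements D' β')) ?_
    · obtain ⟨t, ht, hte, hc⟩ := he n hn
      refine hc.1 ((cent_comm_iff (p := p) hB hD hab hβ hβB ht).2 (u.2.2.2 t ht ?_))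
      exact ((hte ⟨u, u.2.1⟩ ⟨u, u.2.1⟩).2 hnu.symm).symm
    · intro u v huv
      have h1 := congrArg Subtype.val huv
      have h2 := e.injective (Subtype.ext h1)
      exact Subtype.ext (Subtype.mk.inj h2)

include red in
/-- **the bound, from a regular coset in `[D, T]`** -/
theorem bound_regK (hp2 : p ≠ 2) {B : MonoidAlgebra k G} (hB : IsBlock B)
    {D : Subgroup G} (hD : IsDefectGroup B D) (hab : ∀ a ∈ D, ∀ b ∈ D, a * b = b * a)
    {β : MonoidAlgebra k (centralizer (D : Set G))} (hβ : IsBlock β) (hβB : InducesTo β B)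
    {j o : ℕ} {w : G} (hj : 1 ≤ j) (ho0 : 1 ≤ o)
    (hw : w ∈ (⁅inertialGroup D β, D⁆ : Subgroup G))
    (ho : ∀ i : ℕ, (∃ d ∈ (⁅inertialGroup D β, D⁆ : Subgroup G), w ^ i = d ^ p ^ j) ↔ o ∣ i)
    (hreg : ∀ n ∈ inertialGroup D β,
      (∃ d ∈ (⁅inertialGroup D β, D⁆ : Subgroup G), n * w * n⁻¹ * w⁻¹ = d ^ p ^ j) →
      n ∈ centralizer (D : Set G))
    (hii : inertialIndex D β * Nat.card (⁅inertialGroup D β, D⁆ : Subgroup G) <
      p ^ (2 * j) * Nat.card {u : G // u ∈ (⁅inertialGroup D β, D⁆ : Subgroup G) ∧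
        u ∈ regularElements D β}) :
    numSimpleIn B * Nat.card {y : G // ∃ d ∈ (⁅inertialGroup D β, D⁆ : Subgroup G),
      d ^ p ^ j = y} * o ≤ Nat.card (⁅inertialGroup D β, D⁆ : Subgroup G) * p := by
  obtain ⟨X, _, _, B', D', β', h1, h2, h3, h4, h5, h6, h7, h8⟩ := exists_hyp red hB hD hab hβ hβB
  obtain ⟨w', hw'⟩ := regCoset_act (p := p) hB hD hab hβ hβB h8 hj ho0 hw ho hreg hii
  rw [h6, ← card_pow_act (p ^ j) h8, ← card_act h8]
  exact bound_of_regularCoset (P179H452.m7Stmt red hp2) h1 h2 h3 h4 h5 hw'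

/-- **the equality, from a regular coset in `[D, T]` and a faithful action on the
`p ^ a`-th powers** -/
theorem eq_regK (hp2 : p ≠ 2) {B : MonoidAlgebra k G} (hB : IsBlock B)
    {D : Subgroup G} (hD : IsDefectGroup B D) (hab : ∀ a ∈ D, ∀ b ∈ D, a * b = b * a)
    {β : MonoidAlgebra k (centralizer (D : Set G))} (hβ : IsBlock β) (hβB : InducesTo β B)
    {a j o : ℕ} {w : G}
    (hf : ∀ t ∈ inertialGroup D β,
      (∀ d ∈ (⁅inertialGroup D β, D⁆ : Subgroup G), t * d ^ p ^ a * t⁻¹ = d ^ p ^ a) →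
      t ∈ centralizer (D : Set G))
    (hj : 1 ≤ j) (ho0 : 1 ≤ o)
    (hw : w ∈ (⁅inertialGroup D β, D⁆ : Subgroup G))
    (ho : ∀ i : ℕ, (∃ d ∈ (⁅inertialGroup D β, D⁆ : Subgroup G), w ^ i = d ^ p ^ j) ↔ o ∣ i)
    (hreg : ∀ n ∈ inertialGroup D β,
      (∃ d ∈ (⁅inertialGroup D β, D⁆ : Subgroup G), n * w * n⁻¹ * w⁻¹ = d ^ p ^ j) →
      n ∈ centralizer (D : Set G))
    (hii : inertialIndex D β * Nat.card (⁅inertialGroup D β, D⁆ : Subgroup G) <
      p ^ (2 * j) * Nat.card {u : G // u ∈ (⁅inertialGroup D β, D⁆ : Subgroup G) ∧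
        u ∈ regularElements D β})
    (he : inertialIndex D β ≤ p ^ (a + 1))
    (hcard : Nat.card (⁅inertialGroup D β, D⁆ : Subgroup G) * p ≤ p ^ (a + 1) *
      (Nat.card {y : G // ∃ d ∈ (⁅inertialGroup D β, D⁆ : Subgroup G), d ^ p ^ j = y} * o)) :
    numSimpleIn B = numWeightsIn p red B := by
  obtain ⟨X, _, _, B', D', β', h1, h2, h3, h4, h5, h6, h7, h8⟩ := exists_hyp red hB hD hab hβ hβB
  obtain ⟨w', hw'⟩ := regCoset_act (p := p) hB hD hab hβ hβB h8 hj ho0 hw ho hreg hii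
  have hle : inertialIndex D' β' ≤ inertialIndex D β := by
    rw [← relIndex_comm (p := p) hB hD hab hβ hβB]
    exact relIndex_act comm_conj_mem h8
  obtain ⟨hj', hoo, hww, ho', hreg', hii'⟩ := hw'
  rw [h6, h7]
  refine eq_of_w red (P179H843.eqRel p k red) (P179H452.m7Stmt red hp2) h1 h2 h3 h4 h5
    (a := a) (j := j) (o := o) (w := w')
    (faithful_act comm_conj_mem h8 _ fun t ht h => (cent_comm_iff (p := p) hB hD hab hβ hβB ht).2
      (hf t ht h)) hj' hww hoo (fun i hi => (ho' i).1 hi) hreg' hii' ?_ (hle.trans he)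
  rw [card_act h8, card_pow_act (p ^ j) h8]
  exact hcard

end

end P179H364
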