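import Vale.Agent.P179.H526.KY

/-!
# The twisted centres `M_z(H, e)`
-/

namespace P179H364

open Subgroup Finset P179C P179Y

open scoped Classical

universe u

variable {k : Type u} [Field k] {G : Type} [Group G] [Fintype G]

theorem conv_add' (a b c : G → k) : conv a (b + c) = conv a b + conv a c := by
  funext x
  simp only [conv, Pi.add_apply, mul_add, Finset.sum_add_distrib]

theorem conv_smul' (a : G → k) (r : k) (b : G → k) : conv a (r • b) = r • conv a b := by
  funext x
  simp only [conv, Pi.smul_apply, smul_eq_mul, Finset.mul_sum]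
  exact Finset.sum_congr rfl fun h _ => by ring

theorem conv_zero' (a : G → k) : conv a (0 : G → k) = 0 := by
  funext x
  simp [conv]

/-- the functions on the coset `H z` which are invariant under conjugation by `H` and fixed by
multiplication with `e` -/
noncomputable def Mz (H : Subgroup G) (z : G) (e : G → k) : Submodule k (G → k) where
  carrier := {f | (∀ g, f g ≠ 0 → g * z⁻¹ ∈ H) ∧ (∀ h ∈ H, ∀ g, f (h * g * h⁻¹) = f g) ∧
    conv e f = f}
  add_mem' := by
    rintro a b ⟨ha, ha', ha''⟩ ⟨hb, hb', hb''⟩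
    refine ⟨fun g hg => ?_, fun h hh g => ?_, ?_⟩
    · by_contra hcon
      apply hg
      rw [Pi.add_apply, not_imp_comm.1 (ha g) hcon, not_imp_comm.1 (hb g) hcon, add_zero]
    · rw [Pi.add_apply, Pi.add_apply, ha' h hh, hb' h hh]
    · rw [conv_add', ha'', hb'']
  zero_mem' := ⟨fun g hg => absurd rfl hg, fun _ _ _ => rfl, conv_zero' e⟩
  smul_mem' := by
    rintro c a ⟨ha, ha', ha''⟩
    refine ⟨fun g hg => ha g fun h0 => hg ?_, fun h hh g => ?_, ?_⟩
    · rw [Pi.smul_apply, h0, smul_zero]
    · rw [Pi.smul_apply, Pi.smul_apply, ha' h hh]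
    · rw [conv_smul', ha'']

theorem mem_Mz {H : Subgroup G} {z : G} {e f : G → k} : f ∈ Mz H z e ↔
    (∀ g, f g ≠ 0 → g * z⁻¹ ∈ H) ∧ (∀ h ∈ H, ∀ g, f (h * g * h⁻¹) = f g) ∧ conv e f = f := Iff.rfl

omit [Fintype G] in
/-- the restriction to the coset `H z` -/
noncomputable def cutz (H : Subgroup G) (z : G) (F : G → k) : G → k :=
  fun g => if g * z⁻¹ ∈ H then F g else 0

omit [Fintype G] in
theorem cutz_of {H : Subgroup G} {z : G} {F : G → k} {g : G} (h : g * z⁻¹ ∈ H) :
    cutz H z F g = F g := if_pos h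

omit [Fintype G] in
theorem cutz_of_not {H : Subgroup G} {z : G} {F : G → k} {g : G} (h : g * z⁻¹ ∉ H) :
    cutz H z F g = 0 := if_neg h

end P179H364
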