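import Vale.Agent.P179.R2.H364.StepF

/-!
# The surjectivity of `F ↦ e_H * F|_{Hz}`
-/

namespace P179H364

open Subgroup Finset P179H524 P179A P179P P179C P179Y P179H12 P179H854

open scoped Classical

universe u

/-- supports of the elements of `M_z(C_G(P), b)` -/
def SuppStmt (p : ℕ) (k : Type u) [Field k] : Prop :=
  ∀ (G : Type) [Group G] [Fintype G] (D P : Subgroup G) (l : (G → k) → k), BP p D l →
    IsPGroup p D → D ≤ centralizer (D : Set G) → P ≤ D →
    (∀ n ∈ stabT D l, n ∈ centralizer (P : Set G) → n ∈ centralizer (D : Set G)) →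
    ∀ z ∈ stabT D l, z ∈ normalizer (P : Set G) →
    ∀ b : MonoidAlgebra k (centralizer (P : Set G)), IsBlock b →
      Low (centralizer (P : Set G)) l b →
    ∀ f ∈ Mz (centralizer (P : Set G)) z (bF (centralizer (P : Set G)) b),
    ∀ u ∈ centralizer (P : Set G), (∃ n : ℕ, u ^ p ^ n = 1) → ∀ g, f g ≠ 0 → u * g = g * u →
      ∃ h ∈ centralizer (P : Set G), h⁻¹ * u * h ∈ D ∧ z * (h⁻¹ * u * h) * z⁻¹ = h⁻¹ * u * h

section

variable {k : Type u} [Field k] {G : Type} [Group G] [Fintype G]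

/-- the relative trace from `H` to `C`, inside an ambient group -/
noncomputable def TT (H : Subgroup G) (S : G → Prop) (f : G → k) : G → k :=
  fun x => ∑ c : G ⧸ H, (if S c.out then f (c.out⁻¹ * x * c.out) else 0)

theorem TT_eq_sum (H : Subgroup G) (S : G → Prop) (f : G → k) :
    TT H S f = ∑ c : G ⧸ H, (if S c.out then cj c.out f else 0) := by
  funext x
  rw [Finset.sum_apply]
  unfold TT
  refine Finset.sum_congr rfl fun c _ => ?_
  split_ifs <;> rfl

theorem TT_conj {H C : Subgroup G} (hHC : H ≤ C) {f : G → k}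
    (hf : ∀ h ∈ H, ∀ x, f (h * x * h⁻¹) = f x) {d : G} (hd : d ∈ C) (x : G) :
    TT H (fun c => c ∈ C) f (d * x * d⁻¹) = TT H (fun c => c ∈ C) f x := by
  have hout : ∀ c : G, (c : G ⧸ H).out ∈ C ↔ c ∈ C := by
    intro c
    obtain ⟨h, hh⟩ := QuotientGroup.mk_out_eq_mul H c
    rw [hh, Subgroup.mul_mem_cancel_right _ (hHC h.2)]
  unfold TT
  rw [← Equiv.sum_comp (MulAction.toPerm (d : G) : Equiv.Perm (G ⧸ H))]
  refine Finset.sum_congr rfl fun c => ?_
  induction c using QuotientGroup.induction_on with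
  | H c =>
  intro _
  have h1 : (MulAction.toPerm (d : G) : Equiv.Perm (G ⧸ H)) (c : G ⧸ H) = ((d * c : G) : G ⧸ H) :=
    rfl
  rw [h1, apply_out hf, apply_out hf]
  simp only [hout, Subgroup.mul_mem_cancel_left _ hd]
  have h2 : (d * c)⁻¹ * (d * x * d⁻¹) * (d * c) = c⁻¹ * x * c := by group
  rw [h2]

theorem exists_of_TT_ne {H : Subgroup G} {S : G → Prop} {f : G → k} {x : G}
    (h : TT H S f x ≠ 0) : ∃ c : G, S c ∧ f (c⁻¹ * x * c) ≠ 0 := by
  obtain ⟨c, -, hc⟩ := Finset.exists_ne_zero_of_sum_ne_zero h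
  by_cases hS : S c.out
  · rw [if_pos hS] at hc
    exact ⟨_, hS, hc⟩
  · rw [if_neg hS] at hc
    exact absurd rfl hc

theorem conv_sum_right {ι : Type*} (s : Finset ι) (a : G → k) (b : ι → G → k) :
    conv a (∑ i ∈ s, b i) = ∑ i ∈ s, conv a (b i) := by
  induction s using Finset.induction_on with
  | empty => rw [Finset.sum_empty, Finset.sum_empty, conv_zero']
  | insert i s hi ih => rw [Finset.sum_insert hi, Finset.sum_insert hi, conv_add', ih]

theorem zero_conv' (b : G → k) : conv (0 : G → k) b = 0 := by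
  funext x
  simp [conv]

theorem conv_supp {H : Subgroup G} {z : G} {a b : G → k} (ha : ∀ x, a x ≠ 0 → x ∈ H)
    (hb : ∀ x, b x ≠ 0 → x * z⁻¹ ∈ H) {g : G} (hg : conv a b g ≠ 0) : g * z⁻¹ ∈ H := by
  obtain ⟨x, -, hx⟩ := Finset.exists_ne_zero_of_sum_ne_zero hg
  have h1 : x ∈ H := ha x (left_ne_zero_of_mul hx)
  have h2 := hb _ (right_ne_zero_of_mul hx)
  have h3 : g * z⁻¹ = x * (x⁻¹ * g * z⁻¹) := by group
  rw [h3]
  exact mul_mem h1 h2

end

section main

variable {p : ℕ} [hp : Fact p.Prime] {k : Type u} [Field k] [IsAlgClosed k] [CharP k p]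

/-- a block `b'` of `H = C_G(P) ∩ C_G(Q)` below `l` is contained in the Brauer image of the block
`b` of `C_G(P)` below `l` -/
theorem conv_cut_block {G : Type} [Group G] [Fintype G] {D Q C H : Subgroup G}
    {l : (G → k) → k} (hl : BP p D l) (hD : IsPGroup p D) (hab : D ≤ centralizer (D : Set G))
    (hQD : Q ≤ D) (hQp : IsPGroup p Q) (hQC : Q ≤ C) (hH : ∀ x, x ∈ H ↔ x ∈ C ∧ x ∈ centralizer (Q : Set G))
    (hCH : centralizer (D : Set G) ≤ H)
    {b : MonoidAlgebra k C} (hb : IsBlock b) (hlb : Low C l b)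
    {b' : MonoidAlgebra k H} (hb' : IsBlock b') (hlb' : Low H l b') :
    conv (bF H b') (cutC Q (bF C b)) = bF H b' := by
  have hml : MulH H l := BP.mulH hl hD hab hCH
  have heC := invOn_bF (H := C) hb.1
  set e := bF C b with he
  set a := cutC Q e with ha
  have hHC : H ≤ C := fun x hx => ((hH x).1 hx).1
  have haH : InvOn H a := by
    constructor
    · intro h hh x
      have h1 : h * x * h⁻¹ ∈ centralizer (Q : Set G) ↔ x ∈ centralizer (Q : Set G) := by
        have hhQ := ((hH h).1 hh).2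
        rw [Subgroup.mul_mem_cancel_right _ (inv_mem hhQ), Subgroup.mul_mem_cancel_left _ hhQ]
      rw [ha]
      unfold cutC
      simp only [h1, heC.1 h (hHC hh) x]
    · intro x hx
      rw [ha]
      unfold cutC
      by_cases h1 : x ∈ centralizer (Q : Set G)
      · rw [if_pos h1]
        exact heC.2 x fun h2 => hx ((hH x).2 ⟨h2, h1⟩)
      · rw [if_neg h1]
  have hee : conv e e = e := conv_bF_self hb
  have haa : conv a a = a := by
    funext x
    by_cases hx : x ∈ centralizer (Q : Set G)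
    · rw [ha, ← conv_cut p Q hQp (fun d hd => heC.1 d (hQC hd)) (fun d hd => heC.1 d (hQC hd)) hx,
        hee]
      unfold cutC
      rw [if_pos hx]
    · have h1 : a x = 0 := by
        rw [ha]
        unfold cutC
        rw [if_neg hx]
      rw [h1]
      by_contra hne
      have h2 : x * (1 : G)⁻¹ ∈ centralizer (Q : Set G) := by
        have h0 : ∀ y, a y ≠ 0 → y ∈ centralizer (Q : Set G) := by
          intro y hy
          by_contra hcon
          apply hy
          rw [ha]
          unfold cutC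
          rw [if_neg hcon]
        exact conv_supp h0 (fun y hy => by rw [inv_one, mul_one]; exact h0 y hy) hne
      rw [inv_one, mul_one] at h2
      exact hx h2
  have hla : l a = 1 := by
    rw [← Low.one hb hlb]
    refine hl.congr fun x hx => ?_
    rw [ha]
    unfold cutC
    rw [if_pos ((hH x).1 (hCH hx)).2]
  set A : MonoidAlgebra k H := mkF (fun h : H => a h) with hA
  have hAc : A ∈ Subalgebra.center k (MonoidAlgebra k H) := mkF_mem (isCF_of_invOn haH)
  have hbA : bF H A = a := bF_mkF a haH.2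
  have hAA : A * A = A := by
    apply bF_inj
    rw [bF_mul, hbA, haa]
  have hcomm : b' * A = A * b' := ((Subalgebra.mem_center_iff.1 hAc) b')
  have hidem : (b' * A) * (b' * A) = b' * A := by
    calc (b' * A) * (b' * A) = b' * (A * b') * A := by simp only [mul_assoc]
      _ = (b' * b') * (A * A) := by rw [← hcomm]; simp only [mul_assoc]
      _ = b' * A := by rw [hb'.2.1, hAA]
  have hle : (b' * A) * b' = b' * A := by
    rw [mul_assoc, ← hcomm, ← mul_assoc, hb'.2.1]
  have hval : l (conv (bF H b') a) = 1 := by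
    rw [hml.mul _ _ (invOn_bF hb'.1) haH, Low.one hb' hlb', hla, mul_one]
  rcases hb'.2.2.2 (b' * A) (Subalgebra.mul_mem _ hb'.1 hAc) hidem hle with h | h
  · exfalso
    have h1 : conv (bF H b') a = 0 := by rw [← hbA, ← bF_mul, h, bF_zero]
    rw [h1, hml.zero] at hval
    exact zero_ne_one hval
  · rw [← hbA, ← bF_mul, h]

theorem onto_core {G : Type} [Group G] [Fintype G] {D P Q Q2 C H : Subgroup G}
    {l : (G → k) → k} (hl : BP p D l) (hD : IsPGroup p D) (hab : D ≤ centralizer (D : Set G))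
    (hT : ¬ p ∣ (centralizer (D : Set G)).relIndex (stabT D l)) (hPD : P ≤ D)
    (hC : C = centralizer (P : Set G))
    (hnil : ∀ n ∈ stabT D l, n ∈ C → n ∈ centralizer (D : Set G)) {z : G}
    (hz : z ∈ stabT D l ⊓ normalizer (P : Set G)) (hQ : Q = D ⊓ centralizer {z})
    (hQ2 : Q2 = P ⊔ Q) (hHdef : H = centralizer (Q2 : Set G))
    {b : MonoidAlgebra k C} (hb : IsBlock b) (hlb : Low C l b)
    {b' : MonoidAlgebra k H} (hb' : IsBlock b') (hlb' : Low H l b') {f : G → k}
    (hf : f ∈ Mz H z (bF H b'))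
    (hsupp : ∀ u ∈ H, (∃ n : ℕ, u ^ p ^ n = 1) → ∀ g, f g ≠ 0 → u * g = g * u →
      ∃ h ∈ H, h⁻¹ * u * h ∈ D ∧ z * (h⁻¹ * u * h) * z⁻¹ = h⁻¹ * u * h) :
    ∃ F ∈ Mz C z (bF C b), conv (bF H b') (cutz H z F) = f := by
  have hPQ2 : P ≤ Q2 := hQ2 ▸ le_sup_left
  have hQQ2 : Q ≤ Q2 := hQ2 ▸ le_sup_right
  have hQD : Q ≤ D := hQ ▸ inf_le_left
  have hQ2D : Q2 ≤ D := hQ2 ▸ sup_le hPD hQD
  have hDH : centralizer (D : Set G) ≤ H := hHdef ▸ centralizer_le hQ2D
  have hDC : centralizer (D : Set G) ≤ C := hC ▸ centralizer_le hPD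
  have hHC : H ≤ C := by
    rw [hHdef, hC]
    exact centralizer_le hPQ2
  have hHQ : H ≤ centralizer (Q : Set G) := hHdef ▸ centralizer_le hQQ2
  have hmemQ : ∀ x, x ∈ Q ↔ x ∈ D ∧ x * z = z * x := by
    intro x
    rw [hQ, Subgroup.mem_inf, mem_centralizer_singleton_iff]
  have hCP : ∀ x ∈ C, ∀ y ∈ P, y * x = x * y := by
    intro x hx
    rw [hC] at hx
    exact mem_centralizer_iff.1 hx
  have hDleH : D ≤ H := hab.trans hDH
  have hQp : IsPGroup p Q := hD.to_le hQD
  have hmemH : ∀ x, x ∈ H ↔ x ∈ C ∧ x ∈ centralizer (Q : Set G) := by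
    intro x
    constructor
    · exact fun hx => ⟨hHC hx, hHQ hx⟩
    · rintro ⟨h1, h2⟩
      have h3 : Q2 ≤ centralizer {x} := by
        rw [hQ2, sup_le_iff]
        constructor
        · intro y hy
          rw [mem_centralizer_singleton_iff]
          exact hCP x h1 y hy
        · intro y hy
          rw [mem_centralizer_singleton_iff]
          exact mem_centralizer_iff.1 h2 y hy
      rw [hHdef, mem_centralizer_iff]
      intro y hy
      exact mem_centralizer_singleton_iff.1 (h3 hy)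
  have hzT : z ∈ stabT D l := (mem_inf.1 hz).1
  have hzP : z ∈ normalizer (P : Set G) := (mem_inf.1 hz).2
  have hzz : z * z * z⁻¹ * z⁻¹ ∈ centralizer (D : Set G) := by
    have h1 : z * z * z⁻¹ * z⁻¹ = 1 := by group
    rw [h1]
    exact one_mem _
  have hzC : z ∈ normalizer (C : Set G) := hC ▸ norm_cent hzP
  have hzQ : z ∈ centralizer (Q : Set G) := by
    rw [mem_centralizer_iff]
    intro q hq
    exact ((hmemQ q).1 hq).2
  -- the `p`-elements of `C_H(g)`
  have hpel : ∀ u ∈ H, (∃ n : ℕ, u ^ p ^ n = 1) → ∀ g, f g ≠ 0 → u * g = g * u → u ∈ Q := by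
    intro u hu hup g hg hug
    obtain ⟨h, hh, h1, h2⟩ := hsupp u hu hup g hg hug
    have h3 : h⁻¹ * u * h ∈ Q := (hmemQ _).2 ⟨h1, (mul_inv_eq_iff_eq_mul.1 h2).symm⟩
    have h4 := mem_centralizer_iff.1 (hHQ hh) _ h3
    have h5 : u = h⁻¹ * u * h := by
      calc u = h * (h⁻¹ * u * h) * h⁻¹ := by group
        _ = (h⁻¹ * u * h) * h * h⁻¹ := by rw [← h4]
        _ = h⁻¹ * u * h := by group
    rw [h5]
    exact h3
  have hfsupp : ∀ g, f g ≠ 0 → g * z⁻¹ ∈ H := hf.1
  have hfinv : ∀ h ∈ H, ∀ g, f (h * g * h⁻¹) = f g := hf.2.1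
  have hfe : conv (bF H b') f = f := hf.2.2
  set e : G → k := bF C b with he
  set eH : G → k := bF H b' with heHdef
  have heC : InvOn C e := invOn_bF hb.1
  have hee : conv e e = e := conv_bF_self hb
  have hml : MulH H l := BP.mulH hl hD hab hDH
  -- the trace
  set T : G → k := TT H (fun c => c ∈ C) f with hTdef
  set TN : G → k := TT H (fun c => c ∈ C ∧ c ∈ normalizer (Q : Set G)) f with hTN
  have hTsupp : ∀ x, T x ≠ 0 → x * z⁻¹ ∈ C := by
    intro x hx
    obtain ⟨c, hc, hne⟩ := exists_of_TT_ne hx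
    have h1 := hHC (hfsupp _ hne)
    have h2 := (conj_mem_coset (x := x) hzC (inv_mem hc)).1
    rw [inv_inv] at h2
    exact h2 h1
  have hTinv : ∀ d ∈ C, ∀ x, T (d * x * d⁻¹) = T x := fun d hd x => TT_conj hHC hfinv hd x
  have hTTN : ∀ x ∈ centralizer (Q : Set G), T x = TN x := by
    intro x hx
    rw [← sub_eq_zero, hTdef, hTN]
    unfold TT
    rw [← Finset.sum_sub_distrib]
    have h := exists_fixed_coset p H hfinv (x := x)
      (fun c => c ∈ C ∧ c ∉ normalizer (Q : Set G)) Q hQp ?_ ?_ ?_ ?_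
    · refine Eq.trans (Finset.sum_congr rfl fun c _ => ?_) h
      by_cases hcC : c.out ∈ C
      · by_cases hcN : c.out ∈ normalizer (Q : Set G)
        · simp [hcC, hcN]
        · simp [hcC, hcN]
      · simp [hcC]
    · intro q hq
      rw [mem_centralizer_singleton_iff]
      exact mem_centralizer_iff.1 hx q hq
    · intro q hq c
      have hqC : q ∈ C := hDC (hab (hQD hq))
      have hqN : q ∈ normalizer (Q : Set G) := le_normalizer hq
      rw [Subgroup.mul_mem_cancel_left _ hqC, Subgroup.mul_mem_cancel_left _ hqN]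
    · intro h hh c
      have hhC : h ∈ C := hHC hh
      have hhN : h ∈ normalizer (Q : Set G) := cent_le_norm Q (hHQ hh)
      rw [Subgroup.mul_mem_cancel_right _ hhC, Subgroup.mul_mem_cancel_right _ hhN]
    · rintro c ⟨hcC, hcN⟩ hcQ
      by_contra hne
      apply hcN
      apply mem_norm_of_conj_le
      intro d hd
      refine hpel _ (hcQ d hd) ?_ _ hne ?_
      · obtain ⟨n, hn⟩ := hQp ⟨d, hd⟩
        refine ⟨n, ?_⟩
        have h1 : d ^ p ^ n = 1 := congrArg Subtype.val hn
        have h2 : c⁻¹ * d * c = c⁻¹ * d * c⁻¹⁻¹ := by rw [inv_inv]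
        rw [h2, conj_pow, h1]
        group
      · have h1 := mem_centralizer_iff.1 hx d hd
        calc c⁻¹ * d * c * (c⁻¹ * x * c) = c⁻¹ * (d * x) * c := by group
          _ = c⁻¹ * x * c * (c⁻¹ * d * c) := by rw [h1]; group
  have hfQ : ∀ x, f x ≠ 0 → x ∈ centralizer (Q : Set G) := by
    intro x hx
    have h1 := hHQ (hfsupp x hx)
    have h2 : x = x * z⁻¹ * z := by group
    rw [h2]
    exact mul_mem h1 hzQ
  have hTNQ : ∀ x, TN x ≠ 0 → x ∈ centralizer (Q : Set G) := by
    intro x hx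
    obtain ⟨c, ⟨-, hc⟩, hne⟩ := exists_of_TT_ne hx
    have h1 := hfQ _ hne
    have h2 := (conj_mem_cent (inv_mem hc) x).1
    rw [inv_inv] at h2
    exact h2 h1
  have hcutT : cutC Q T = TN := by
    funext x
    unfold cutC
    by_cases hx : x ∈ centralizer (Q : Set G)
    · rw [if_pos hx, hTTN x hx]
    · rw [if_neg hx]
      by_contra hne
      exact hx (hTNQ x fun h => hne h.symm)
  have hTNsupp : ∀ x, TN x ≠ 0 → x * z⁻¹ ∈ H := by
    intro x hx
    have h1 := hTNQ x hx
    have h2 : T x ≠ 0 := by rw [hTTN x h1]; exact hx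
    exact (hmemH _).2 ⟨hTsupp x h2, mul_mem h1 (inv_mem hzQ)⟩
  have hcute : ∀ x, cutC Q e x ≠ 0 → x ∈ H := by
    intro x hx
    unfold cutC at hx
    by_cases h1 : x ∈ centralizer (Q : Set G)
    · rw [if_pos h1] at hx
      refine (hmemH x).2 ⟨?_, h1⟩
      by_contra h2
      exact hx (heC.2 x h2)
    · rw [if_neg h1] at hx
      exact absurd rfl hx
  have hQC : Q ≤ C := fun q hq => hDC (hab (hQD hq))
  have hcutF : cutz H z (conv e T) = conv (cutC Q e) TN := by
    funext x
    by_cases hx : x * z⁻¹ ∈ H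
    · rw [cutz_of hx]
      have hxQ : x ∈ centralizer (Q : Set G) := by
        have h2 : x = x * z⁻¹ * z := by group
        rw [h2]
        exact mul_mem (hHQ hx) hzQ
      rw [conv_cut p Q hQp (fun d hd => heC.1 d (hQC hd)) (fun d hd => hTinv d (hQC hd)) hxQ,
        hcutT]
    · rw [cutz_of_not hx]
      by_contra hne
      exact hx (conv_supp hcute hTNsupp fun h => hne h.symm)
  refine ⟨conv e T, conv_mem_Mz heC hee hTsupp hTinv, ?_⟩
  rw [hcutF, ← P179I.conv_assoc', conv_cut_block hl hD hab hQD hQp hQC hmemH hDH hb hlb hb' hlb']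
  have hnH : ∀ c : G, c ∈ normalizer (P : Set G) → c ∈ normalizer (Q : Set G) →
      c ∈ normalizer (H : Set G) := by
    intro c h1 h2
    rw [hHdef, hQ2]
    exact norm_cent (norm_sup h1 h2)
  -- the remaining sum
  rw [hTN, TT_eq_sum, conv_sum_right]
  have hterm : ∀ c : G ⧸ H, conv eH
      (if c.out ∈ C ∧ c.out ∈ normalizer (Q : Set G) then cj c.out f else 0) =
      if c = ((1 : G) : G ⧸ H) then f else 0 := by
    intro c
    have hc1 : c = ((1 : G) : G ⧸ H) ↔ c.out ∈ H := by
      constructor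
      · rintro rfl
        obtain ⟨h, hh⟩ := QuotientGroup.mk_out_eq_mul H (1 : G)
        rw [hh, one_mul]
        exact h.2
      · intro h
        rw [← QuotientGroup.out_eq' c, eq_comm, QuotientGroup.eq]
        simpa using h
    by_cases hcH : c.out ∈ H
    · rw [if_pos (hc1.2 hcH), if_pos ⟨hHC hcH, cent_le_norm Q (hHQ hcH)⟩,
        cj_eq_of_inv fun x => hfinv _ hcH x]
      exact hfe
    · rw [if_neg fun h => hcH (hc1.1 h)]
      by_cases hcS : c.out ∈ C ∧ c.out ∈ normalizer (Q : Set G)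
      · rw [if_pos hcS]
        have hcP : c.out ∈ normalizer (P : Set G) := cent_le_norm P (hC ▸ hcS.1)
        have hcH' : c.out ∈ normalizer (H : Set G) := hnH _ hcP hcS.2
        have hst : c.out ∉ stH H l := by
          intro hmem
          obtain ⟨h, hh, hn⟩ := exists_stab hl hD hab hT hDleH hDH hmem
          apply hcH
          have h1 : h⁻¹ * c.out ∈ C := mul_mem (inv_mem (hHC hh)) hcS.1
          have h2 := hDH (hnil _ hn h1)
          have h3 : c.out = h * (h⁻¹ * c.out) := by group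
          rw [h3]
          exact mul_mem hh h2
        have h0 : conv eH (cj c.out eH) = 0 := conv_cj_eq_zero hml hb' hlb' hcH' hst
        conv_lhs => rw [← hfe]
        rw [cj_conv, ← P179I.conv_assoc']
        change conv (conv eH (cj c.out eH)) (cj c.out f) = 0
        rw [h0, zero_conv']
      · rw [if_neg hcS, conv_zero']
  calc _ = ∑ c : G ⧸ H, (if c = ((1 : G) : G ⧸ H) then f else 0) :=
        Finset.sum_congr rfl fun c _ => by
          rw [← hterm c]
          congr
    _ = f := by rw [Finset.sum_ite_eq' Finset.univ, if_pos (Finset.mem_univ _)]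

/-- **the surjectivity** -/
theorem onto (hsupp : SuppStmt p k) : OntoStmt p k := by
  intro G _ _ D P l hl hD hab hT hPD hnil z hz b hb hlb b' hb' hlb' f hf
  have hzT : z ∈ stabT D l := (mem_inf.1 hz).1
  have hzz : z * z * z⁻¹ * z⁻¹ ∈ centralizer (D : Set G) := by
    have h1 : z * z * z⁻¹ * z⁻¹ = 1 := by group
    rw [h1]
    exact one_mem _
  refine onto_core hl hD hab hT hPD rfl hnil hz rfl rfl rfl hb hlb hb' hlb' hf ?_
  exact hsupp G D _ l hl hD hab (sup_le hPD inf_le_left)
    (fun n hn hn' => hnil n hn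
      ((centralizer_le (le_sup_left : P ≤ P ⊔ (D ⊓ centralizer {z})) :
        centralizer ((P ⊔ (D ⊓ centralizer {z}) : Subgroup G) : Set G) ≤ _) hn')) z hzT
    (norm_sup (mem_inf.1 hz).2 (norm_fix hzT.1 hzz)) b' hb' hlb' f hf

end main

end P179H364
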