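import Vale.Agent.P179.R2.H450.DQ3
import Vale.Agent.P179.R2.H725.Below
import Vale.Agent.P179.R2.H12.Tst

/-!
# The inertial group of a root of a dominated block
-/

namespace P179H364

open Subgroup Finset P179H524 P179A P179C P179P P179Y P179H292 P179H725 P179H450 P179R P179H12

open P179B (inertialGroup inertialIndex regularElements)

open scoped Classical

universe u

section Q

variable {k : Type u} [Field k] {G : Type} [Group G] [Fintype G] (R : Subgroup G) [R.Normal]

/-- the image of a function in the quotient -/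
noncomputable def qf (z : G → k) : G ⧸ R → k := fun y => (quo R (mkF z)).coeff y

theorem qf_apply (z : G → k) (y : G ⧸ R) :
    qf R z y = ∑ g : G, if (g : G ⧸ R) = y then z g else 0 := by
  unfold qf
  rw [coeff_quo]
  simp only [coeff_mkF]

theorem qf_add (a b : G → k) : qf R (a + b) = qf R a + qf R b := by
  funext y
  simp [qf, mkF_add]

theorem qf_smul (c : k) (a : G → k) : qf R (c • a) = c • qf R a := by
  funext y
  simp [qf, mkF_smul]

theorem qf_one : qf R (fun g : G => if g = 1 then (1 : k) else 0) = fun y => if y = 1 then 1 else 0 := by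
  funext y
  unfold qf
  rw [mkF_one, map_one, MonoidAlgebra.one_def, MonoidAlgebra.coeff_single, Finsupp.single_apply]
  simp only [eq_comm]

theorem mkF_qf [Fintype (G ⧸ R)] (z : G → k) : mkF (qf R z) = quo R (mkF z) := mkF_coeff _

theorem qf_conv [Fintype (G ⧸ R)] (a b : G → k) : qf R (conv a b) = conv (qf R a) (qf R b) := by
  funext y
  change (quo R (mkF (conv a b))).coeff y = _
  rw [mkF_conv, map_mul, coeff_mul_eq_conv]
  rfl

theorem qf_cj (t : G) (z : G → k) : qf R (cj t z) = cj (t : G ⧸ R) (qf R z) := by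
  funext y
  change qf R (cj t z) y = qf R z ((t : G ⧸ R)⁻¹ * y * t)
  rw [qf_apply, qf_apply, ← Equiv.sum_comp (MulAut.conj t).toEquiv]
  refine Finset.sum_congr rfl fun g _ => ?_
  change (if ((t * g * t⁻¹ : G) : G ⧸ R) = y then cj t z (t * g * t⁻¹) else 0) = _
  have h1 : cj t z (t * g * t⁻¹) = z g := by
    unfold cj
    congr 1
    group
  have h2 : ((t * g * t⁻¹ : G) : G ⧸ R) = y ↔ (g : G ⧸ R) = (t : G ⧸ R)⁻¹ * y * t := by
    rw [QuotientGroup.mk_mul, QuotientGroup.mk_mul, QuotientGroup.mk_inv]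
    constructor
    · rintro rfl
      group
    · intro h
      rw [h]
      group
  rw [h1]
  simp only [h2]

theorem qf_supp {H : Subgroup (G ⧸ R)} {z : G → k}
    (hz : ∀ x : G, (x : G ⧸ R) ∈ H → z x = 0) : ∀ y ∈ H, qf R z y = 0 := by
  intro y hy
  rw [qf_apply]
  refine Finset.sum_eq_zero fun g _ => ?_
  split_ifs with h
  · exact hz g (h ▸ hy)
  · rfl

theorem qf_invOn {H : Subgroup (G ⧸ R)} {z : G → k}
    (hz : InvOn (H.comap (QuotientGroup.mk' R)) z) : InvOn H (qf R z) := by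
  constructor
  · intro h hh x
    obtain ⟨t, rfl⟩ := QuotientGroup.mk_surjective h
    have h1 : cj t⁻¹ z = z := by
      funext g
      change z (t⁻¹⁻¹ * g * t⁻¹) = z g
      rw [inv_inv]
      exact hz.1 t hh g
    have h2 := congrFun (qf_cj R t⁻¹ z) x
    rw [h1] at h2
    rw [h2]
    change qf R z _ = qf R z _
    congr 1
    rw [QuotientGroup.mk_inv, inv_inv]
  · intro x hx
    rw [qf_apply]
    refine Finset.sum_eq_zero fun g _ => ?_
    split_ifs with h
    · exact hz.2 g fun h1 => hx (h ▸ h1)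
    · rfl

theorem qf_isCF {z : G → k} (hz : IsCF z) : IsCF (qf R z) := by
  intro t x
  obtain ⟨t, rfl⟩ := QuotientGroup.mk_surjective t
  have h1 : cj t⁻¹ z = z := by
    funext g
    change z (t⁻¹⁻¹ * g * t⁻¹) = z g
    rw [inv_inv]
    exact hz t g
  have h2 := congrFun (qf_cj R t⁻¹ z) x
  rw [h1] at h2
  rw [h2]
  change qf R z _ = qf R z _
  congr 1
  rw [QuotientGroup.mk_inv, inv_inv]

end Q

section Main

variable {p : ℕ} [hp : Fact p.Prime] {k : Type u} [Field k] [IsAlgClosed k] [CharP k p]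
  {G : Type} [Group G] [Finite G]

theorem centralChar_quo {R : Subgroup G} [R.Normal] {B : MonoidAlgebra k G} (hB : IsBlock B)
    {B' : MonoidAlgebra k (G ⧸ R)} (hB' : IsBlock B') (hdom : B' * quo R B = B')
    {z : MonoidAlgebra k G} (hz : z ∈ Subalgebra.center k (MonoidAlgebra k G)) :
    centralChar B' (quo R z) = centralChar B z := by
  have := Fintype.ofFinite G
  have hfq := Fintype.ofFinite (G ⧸ R)
  obtain ⟨L', hL'⟩ := blockHomStmt B' hB'
  obtain ⟨L, hL⟩ := blockHomStmt B hB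
  have hprim := (isBlock_iff_prim ⟨B, hB.1⟩).1 hB
  have hLL : L'.comp (quoC R) = L := by
    refine eq_of_prim hprim _ _ ?_ (by rw [hL]; exact centralChar_self B hB)
    have h1 : L' (⟨B', hB'.1⟩ * quoC R ⟨B, hB.1⟩) = L' ⟨B', hB'.1⟩ :=
      congrArg L' (Subtype.ext hdom)
    have h2 : L' ⟨B', hB'.1⟩ = 1 := by rw [hL']; exact centralChar_self B' hB'
    rw [map_mul, h2, one_mul] at h1
    exact h1
  have h3 := hL' (quoC R ⟨z, hz⟩)
  have h4 := hL ⟨z, hz⟩
  rw [← hLL] at h4
  change centralChar B' ((quoC R ⟨z, hz⟩ : Subalgebra.center k (MonoidAlgebra k (G ⧸ R))) :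
    MonoidAlgebra k (G ⧸ R)) = _
  rw [← h3, ← h4]
  rfl

/-- the inertial group of a root of a dominated block -/
theorem exists_conj_quo {B : MonoidAlgebra k G} (hB : IsBlock B) {D : Subgroup G}
    (hD : IsDefectGroup B D) (hab : ∀ a ∈ D, ∀ b ∈ D, a * b = b * a)
    {β : MonoidAlgebra k (centralizer (D : Set G))} (hβ : IsBlock β) (hβB : InducesTo β B)
    (R : Subgroup G) [R.Normal] (hR : IsPGroup p R) (hRD : R ≤ D)
    {B' : MonoidAlgebra k (G ⧸ R)} (hB' : IsBlock B') (hdom : B' * quo R B = B')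
    {D' : Subgroup (G ⧸ R)} (hD' : D' = D.map (QuotientGroup.mk' R))
    {β' : MonoidAlgebra k (centralizer (D' : Set (G ⧸ R)))} (hβ' : IsBlock β')
    (hβB' : InducesTo β' B') :
    ∃ g ∈ normalizer (D : Set G), ∀ t : G, (t : G ⧸ R) ∈ inertialGroup D' β' →
      ∃ s ∈ inertialGroup D β, ∃ c : G, (∀ d ∈ D, c * d * c⁻¹ * d⁻¹ ∈ R) ∧
        g⁻¹ * t * g = c * s := by
  have := Fintype.ofFinite G
  have hfq := Fintype.ofFinite (G ⧸ R)
  obtain ⟨l, hl, hlz, hlβ⟩ := exists_BP_of_subblock (p := p) hB hD hab hβ hβB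
  have hDp := (exists_BP_of_block (p := p) B hB D hD).1
  have hT := hT_of_block hB hD hDp hab hl hlz
  have hab' : D ≤ centralizer (D : Set G) := by
    intro x hx
    rw [mem_centralizer_iff]
    intro y hy
    exact hab y hy x hx
  have hDD' : IsDefectGroup B' D' := by
    rw [hD']
    exact isDefectGroup_quo p hB hD hab R hR hB' hdom
  have habD' : ∀ a ∈ D', ∀ b ∈ D', a * b = b * a := by
    rw [hD']
    rintro _ ⟨a, ha, rfl⟩ _ ⟨b, hb, rfl⟩
    rw [← map_mul, hab a ha b hb, map_mul]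
  obtain ⟨lq, hlq, hlqz, hlqβ⟩ := exists_BP_of_subblock (p := p) hB' hDD' habD' hβ' hβB'
  have hDp' := (exists_BP_of_block (p := p) B' hB' D' hDD').1
  have habD'' : D' ≤ centralizer (D' : Set (G ⧸ R)) := by
    intro x hx
    rw [mem_centralizer_iff]
    intro y hy
    exact habD' y hy x hx
  set C' : Subgroup G := (centralizer (D' : Set (G ⧸ R))).comap (QuotientGroup.mk' R) with hC'
  have hmemC' : ∀ x, x ∈ C' ↔ ∀ d ∈ D, x * d * x⁻¹ * d⁻¹ ∈ R := by
    intro x
    rw [hC', mem_comap, mem_centralizer_iff]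
    constructor
    · intro h d hd
      have h1 := h (QuotientGroup.mk' R d) (hD' ▸ ⟨d, hd, rfl⟩)
      rw [← QuotientGroup.eq_one_iff]
      change QuotientGroup.mk' R (x * d * x⁻¹ * d⁻¹) = 1
      rw [map_mul, map_mul, map_mul, map_inv, map_inv, ← h1]
      group
    · intro h y hy
      rw [hD'] at hy
      obtain ⟨d, hd, rfl⟩ := hy
      have h1 := (QuotientGroup.eq_one_iff _).2 (h d hd)
      change QuotientGroup.mk' R (x * d * x⁻¹ * d⁻¹) = 1 at h1
      rw [map_mul, map_mul, map_mul, map_inv, map_inv] at h1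
      have h2 := mul_inv_eq_one.1 h1
      exact (mul_inv_eq_iff_eq_mul.1 h2).symm
  have hDC' : D ≤ C' := by
    intro x hx
    rw [hmemC']
    intro d hd
    rw [hab x hx d hd, mul_inv_cancel_right, mul_inv_cancel]
    exact one_mem R
  have hCC' : centralizer (D : Set G) ≤ C' := by
    intro x hx
    rw [hmemC']
    intro d hd
    rw [← mem_centralizer_iff.1 hx d hd, mul_inv_cancel_right, mul_inv_cancel]
    exact one_mem R
  have hC'N : C' ≤ normalizer (D : Set G) := by
    intro x hx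
    have key : ∀ y ∈ C', ∀ d ∈ D, y * d * y⁻¹ ∈ D := by
      intro y hy d hd
      have h1 := mul_mem (hRD ((hmemC' y).1 hy d hd)) hd
      rwa [inv_mul_cancel_right] at h1
    rw [mem_normalizer_iff]
    refine fun d => ⟨key x hx d, fun h => ?_⟩
    have h1 := key x⁻¹ (inv_mem hx) _ h
    have h2 : x⁻¹ * (x * d * x⁻¹) * x⁻¹⁻¹ = d := by group
    rwa [h2] at h1
  -- the functional on `C'`
  let m : (G → k) → k := fun z => lq (qf R z)
  have hmM : MulH C' m := by
    refine ⟨fun a b => ?_, fun c a => ?_, ?_, fun a b ha hb => ?_⟩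
    · change lq (qf R (a + b)) = _
      rw [qf_add, hlq.add]
    · change lq (qf R (c • a)) = _
      rw [qf_smul, hlq.smul]
    · change lq (qf R _) = 1
      rw [qf_one]
      convert hlq.one using 4
    · change lq (qf R (conv a b)) = _
      rw [qf_conv, hlq.mul _ _ (qf_invOn R ha) (qf_invOn R hb)]
  obtain ⟨b, hb, hlb⟩ := exists_blk hmM
  have hmsupp : ∀ z : G → k, (∀ x ∈ C', z x = 0) → m z = 0 := fun z hz =>
    hlq.supp _ (qf_supp R hz)
  have hmcongr : ∀ a b : G → k, (∀ x ∈ C', a x = b x) → m a = m b := by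
    intro a b h
    refine hlq.congr fun x hx => ?_
    rw [qf_apply, qf_apply]
    refine Finset.sum_congr rfl fun g _ => ?_
    split_ifs with h1
    · exact h g (by rw [← h1] at hx; exact hx)
    · rfl
  have hmz : ∀ z, IsCF z → m z = centralChar B (mkF z) := by
    intro z hz
    change lq (qf R z) = _
    rw [hlqz _ (qf_isCF R hz), mkF_qf, centralChar_quo hB hB' hdom (mkF_mem hz)]
  have hcutI : ∀ z : G → k, IsCF z → InvOn C' (fun x => if x ∈ C' then z x else 0) := by
    intro z hz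
    refine ⟨fun c hc x => ?_, fun x hx => if_neg hx⟩
    have e : c * x * c⁻¹ ∈ C' ↔ x ∈ C' := by
      constructor
      · intro h
        have := mul_mem (mul_mem (inv_mem hc) h) hc
        have e1 : c⁻¹ * (c * x * c⁻¹) * c = x := by group
        rwa [e1] at this
      · intro h
        exact mul_mem (mul_mem hc h) (inv_mem hc)
    simp only [e, hz c x]
  have hbB : InducesTo b B := by
    intro z hz
    have hzc : IsCF (fun g => z.coeff g) := (P179C.mem_center_iff _).1 hz
    have h1 := hmz _ hzc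
    rw [mkF_coeff] at h1
    rw [← h1, hmcongr (fun g => z.coeff g) (fun x => if x ∈ C' then z.coeff x else 0)
      (fun x hx => (if_pos hx).symm), hlb _ (hcutI _ hzc)]
    conv_lhs => rw [← mkF_coeff z, trunc_mkF]
    congr 2
    funext h
    exact (if_pos h.2).symm
  obtain ⟨E, hE⟩ := exists_defect hb
  have hn : (D.subgroupOf C').Normal := ⟨fun n hn g => by
    rw [mem_subgroupOf] at hn ⊢
    exact (mem_normalizer_iff.mp (hC'N g.2) _).mp hn⟩
  have hDE := le_defect (p := p) hb hE (D.subgroupOf C')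
    (hDp.of_equiv (subgroupOfEquivOfLe hDC').symm)
  have hDE' : D ≤ E.map C'.subtype := fun x hx =>
    ⟨⟨x, hDC' hx⟩, hDE (mem_subgroupOf.2 hx), rfl⟩
  have hCE : centralizer ((E.map C'.subtype : Subgroup G) : Set G) ≤ C' :=
    (centralizer_le hDE').trans hCC'
  obtain ⟨hEp, lE, hlE, hlEz⟩ := exists_BP_of_block (p := p) b hb E hE
  have hl2 := P179H292.BP.extend hlE hCE
  obtain ⟨g, hg, hgl⟩ := FDc hl hDp hab hT hl2 (hEp.map _)
    fun z hz => by rw [exL_eq hbB hlEz z hz, hlz z hz]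
  have hEeq : E.map C'.subtype = D := by
    refine (eq_of_le_of_card_ge hDE' ?_).symm
    refine Nat.card_le_card_of_injective
      (fun x : (E.map C'.subtype : Subgroup G) => (⟨g⁻¹ * x * g, (hg x).1 x.2⟩ : D)) ?_
    intro x y hxy
    have h1 : g⁻¹ * (x : G) * g = g⁻¹ * y * g := congrArg Subtype.val hxy
    exact Subtype.ext (mul_left_cancel (mul_right_cancel h1))
  rw [hEeq] at hg hl2
  have hgN : g ∈ normalizer (D : Set G) := by
    rw [mem_normalizer_iff]
    intro d
    rw [hg (g * d * g⁻¹)]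
    have : g⁻¹ * (g * d * g⁻¹) * g = d := by group
    rw [this]
  refine ⟨g, hgN, fun t ht => ?_⟩
  set l2 := exL C' lE with hl2def
  have hl2m : ∀ z, InvOn C' z → l2 z = m z := by
    intro z hz
    rw [hlb z hz]
    change lE (fun h : C' => z h) = _
    exact hlEz _ (isCF_of_invOn hz)
  have hNC' : ∀ n ∈ normalizer (D : Set G), ∀ x, x ∈ C' → n * x * n⁻¹ ∈ C' := by
    intro n hn x hx
    rw [hmemC'] at hx ⊢
    intro d hd
    have h1 : n⁻¹ * d * n ∈ D := by
      have := (mem_normalizer_iff.1 (inv_mem hn) d).1 hd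
      rwa [inv_inv] at this
    have h2 := (inferInstance : R.Normal).conj_mem _ (hx _ h1) n
    have h3 : n * (x * (n⁻¹ * d * n) * x⁻¹ * (n⁻¹ * d * n)⁻¹) * n⁻¹ =
        n * x * n⁻¹ * d * (n * x * n⁻¹)⁻¹ * d⁻¹ := by group
    rwa [h3] at h2
  have hNC : ∀ n ∈ normalizer (D : Set G), ∀ x, n * x * n⁻¹ ∈ C' ↔ x ∈ C' := by
    intro n hn x
    refine ⟨fun h => ?_, hNC' n hn x⟩
    have h1 := hNC' n⁻¹ (inv_mem hn) _ h
    have h2 : n⁻¹ * (n * x * n⁻¹) * n⁻¹⁻¹ = x := by group
    rwa [h2] at h1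
  have hcjI : ∀ n ∈ normalizer (D : Set G), ∀ z : G → k, InvOn C' z → InvOn C' (cj n z) := by
    intro n hn z hz
    refine ⟨fun c hc x => ?_, fun x hx => hz.2 _ fun h => hx ?_⟩
    · unfold cj
      have h1 := hz.1 (n⁻¹ * c * n) (by
        have := hNC' n⁻¹ (inv_mem hn) c hc
        rwa [inv_inv] at this) (n⁻¹ * x * n)
      rw [← h1]
      congr 1
      group
    · have h1 := hNC' n hn _ h
      have h2 : n * (n⁻¹ * x * n) * n⁻¹ = x := by group
      rwa [h2] at h1
  -- `l z = m (cj g z)`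
  have hlm : ∀ z : G → k, InvOn C' z → l z = m (cj g z) := by
    intro z hz
    have h1 : InvOn (centralizer (D : Set G)) (cutC D z) :=
      invOn_cutC D fun c hc => hz.1 c (hCC' hc)
    rw [← hl.cut z, ← hgl _ h1, ← hl2m _ (hcjI g hgN z hz)]
    refine hl2.congr fun x hx => ?_
    unfold cj cutC
    have h3 : g⁻¹ * x * g ∈ centralizer (D : Set G) := by
      rw [mem_centralizer_iff]
      intro d hd
      have h4 : g * d * g⁻¹ ∈ D := (mem_normalizer_iff.1 hgN d).1 hd
      have h5 := mem_centralizer_iff.1 hx _ h4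
      calc d * (g⁻¹ * x * g) = g⁻¹ * (g * d * g⁻¹ * x) * g := by group
        _ = g⁻¹ * (x * (g * d * g⁻¹)) * g := by rw [h5]
        _ = _ := by group
    rw [if_pos h3]
  -- elements of the inertial group of `β'`
  have hST : stabT D' lq = inertialGroup D' β' := stabT_eq_inertialGroup hβ' hlqβ
  rw [← hST] at ht
  have htN : t ∈ normalizer (D : Set G) := by
    have h0 : D'.comap (QuotientGroup.mk' R) = D := by
      rw [hD', comap_map_eq, QuotientGroup.ker_mk', sup_eq_left]
      exact hRD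
    have h1 := ht.1
    rw [mem_normalizer_iff] at h1 ⊢
    intro d
    have h2 := h1 (d : G ⧸ R)
    rw [← h0, mem_comap, mem_comap]
    rw [map_mul, map_mul, map_inv]
    exact h2
  have hmt : ∀ n : G, (n : G ⧸ R) ∈ stabT D' lq → ∀ z : G → k, InvOn C' z →
      m (cj n z) = m z := by
    intro n hn z hz
    change lq (qf R (cj n z)) = lq (qf R z)
    rw [qf_cj]
    exact hn.2 _ (qf_invOn R hz)
  set t' := g⁻¹ * t * g with ht'
  have ht'N : t' ∈ normalizer (D : Set G) := mul_mem (mul_mem (inv_mem hgN) htN) hgN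
  have heq : ∀ z : G → k, InvOn C' z → l (cj t'⁻¹ z) = l z := by
    intro z hz
    rw [hlm _ (hcjI _ (inv_mem ht'N) z hz), hlm z hz, ← cj_mul]
    have h1 : g * t'⁻¹ = t⁻¹ * g := by rw [ht']; group
    rw [h1, cj_mul]
    refine hmt t⁻¹ ?_ _ (hcjI g hgN z hz)
    rw [QuotientGroup.mk_inv]
    exact inv_mem ht
  obtain ⟨c, hc, hcs⟩ := fusionH hl hDp hab' hDC' hCC'
    (fun h => hT (h.trans (relIndex_stabT_lres_dvd hDC' hCC'))) (g := t')
    (fun d hd => hDC' ((mem_normalizer_iff.1 ht'N d).1 hd)) heq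
  refine ⟨c⁻¹ * t', ?_, c, (hmemC' c).1 hc, by group⟩
  rw [← stabT_eq_inertialGroup hβ hlβ]
  exact hcs

end Main

end P179H364
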