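import Vale.Agent.P179.R2.H364.QuoRoot
import Vale.Agent.P179.R2.H967.Sur1
import Vale.Agent.P179.H526.Z16

/-!
# The image of a block in the quotient by a central `p`-subgroup is a block
-/

namespace P179H364

open Subgroup Finset P179H524 P179A P179C P179P P179Y P179H292 P179R P179H12 P179H967

open P179B (inertialGroup inertialIndex regularElements)

open scoped Classical

universe u

variable {p : ℕ} [hp : Fact p.Prime] {k : Type u} [Field k] [IsAlgClosed k] [CharP k p]
  (red : integralClosure ℤ ℂ →+* k) {G : Type} [Group G] [Finite G]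

omit red in
/-- a `p`-regular representative of a `p`-regular coset -/
theorem exists_regular_rep (R : Subgroup G) [R.Normal] (y : G ⧸ R)
    (hy : ¬ p ∣ orderOf y) : ∃ g : G, (g : G ⧸ R) = y ∧ ¬ p ∣ orderOf g := by
  obtain ⟨g, rfl⟩ := QuotientGroup.mk_surjective y
  refine ⟨pr p g, ?_, Q7.pr_regular p g (orderOf_pos g).ne'⟩
  have h1 := Q7.map_pr p (QuotientGroup.mk' R) g (orderOf_pos g).ne'
  have h2 := Q7.pr_of_regular p (g : G ⧸ R) (orderOf_pos _).ne' hy
  change ((pr p g : G) : G ⧸ R) = pr p (g : G ⧸ R) at h1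
  rw [h1, h2]

omit [Finite G] in
theorem unique_regular_rep (R : Subgroup G) [R.Normal] (hR : IsPGroup p R)
    (hRc : R ≤ center G) {g h : G} (hgh : (g : G ⧸ R) = h) (hg : ¬ p ∣ orderOf g)
    (hh : ¬ p ∣ orderOf h) : g = h := by
  have hr : g⁻¹ * h ∈ R := QuotientGroup.eq.1 hgh
  set r := g⁻¹ * h with hrdef
  have hrc : ∀ x, x * r = r * x := fun x => Subgroup.mem_center_iff.1 (hRc hr) x
  have hgr : h = g * r := by rw [hrdef]; group
  have hcomm : Commute g r := hrc g
  have h1 : r ^ (orderOf g * orderOf h) = 1 := by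
    have h2 : h ^ (orderOf g * orderOf h) = 1 := by
      rw [mul_comm, pow_mul, pow_orderOf_eq_one, one_pow]
    rw [hgr, hcomm.mul_pow, pow_mul g, pow_orderOf_eq_one, one_pow, one_mul, ← hgr] at h2
    exact h2
  obtain ⟨a, ha⟩ := hR ⟨r, hr⟩
  have ha' : r ^ p ^ a = 1 := congrArg Subtype.val ha
  have h3 := Nat.dvd_gcd (orderOf_dvd_of_pow_eq_one h1) (orderOf_dvd_of_pow_eq_one ha')
  have h4 : Nat.Coprime (orderOf g * orderOf h) (p ^ a) := by
    refine Nat.Coprime.pow_right a (Nat.Coprime.symm ((Nat.Prime.coprime_iff_not_dvd hp.out).2 ?_))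
    intro h5
    rcases (Nat.Prime.dvd_mul hp.out).1 h5 with h6 | h6
    · exact hg h6
    · exact hh h6
  rw [h4.gcd_eq_one, Nat.dvd_one, orderOf_eq_one_iff] at h3
  rw [hgr, h3, mul_one]

include red in
theorem isBlock_quo (R : Subgroup G) [R.Normal] (hR : IsPGroup p R) (hRc : R ≤ center G)
    {B : MonoidAlgebra k G} (hB : IsBlock B) : IsBlock (quo R B) := by
  have := Fintype.ofFinite G
  have hfq := Fintype.ofFinite (G ⧸ R)
  have hQc := quo_mem R hB.1
  have hQQ : quo R B * quo R B = quo R B := by rw [← map_mul, hB.2.1]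
  have hne : quo R B ≠ 0 := by
    intro h0
    have h1 := rel_of_quo p red (P := fun a _ => a = 0) rfl
      (fun a b c d h h' => by omega) R hR hB
      (fun B' hB' h => by
        exfalso
        rw [h0, mul_zero] at h
        exact hB'.2.2.1 h.symm)
    have h2 := numSimpleIn_pos B hB
    omega
  obtain ⟨e, he, hee⟩ := exists_block_mul (p := p) hne
  obtain ⟨-, hee'⟩ := centralChar_of_mul_ne he hQc hQQ hee
  -- a central element above `e`
  let z : G → k := fun g => if ¬ p ∣ orderOf g then e.coeff (g : G ⧸ R) else 0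
  have hecf : IsCF (fun y => e.coeff y) := (P179C.mem_center_iff e).1 he.1
  have hz : IsCF z := by
    intro t x
    have h1 : orderOf (t * x * t⁻¹) = orderOf x := by
      have := (MulAut.conj t).orderOf_eq x
      simpa using this
    change (if ¬ p ∣ orderOf (t * x * t⁻¹) then e.coeff ((t * x * t⁻¹ : G) : G ⧸ R) else 0) =
      if ¬ p ∣ orderOf x then e.coeff (x : G ⧸ R) else 0
    rw [h1, QuotientGroup.mk_mul, QuotientGroup.mk_mul, QuotientGroup.mk_inv]
    have h2 := hecf (t : G ⧸ R) (x : G ⧸ R)
    change e.coeff _ = e.coeff _ at h2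
    rw [h2]
  have hze : quo R (mkF z) = e := by
    have h1 : qf R z = fun y => e.coeff y := by
      funext y
      rw [qf_apply]
      by_cases hy : p ∣ orderOf y
      · rw [osima p e he.1 he.2.1 hy]
        refine Finset.sum_eq_zero fun g _ => ?_
        split_ifs with h
        · change (if ¬ p ∣ orderOf g then e.coeff (g : G ⧸ R) else 0) = 0
          rw [h, osima p e he.1 he.2.1 hy, ite_self]
        · rfl
      · obtain ⟨g0, hg0, hg0r⟩ := exists_regular_rep (p := p) R y hy
        rw [Finset.sum_eq_single g0]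
        · rw [if_pos hg0]
          change (if ¬ p ∣ orderOf g0 then e.coeff (g0 : G ⧸ R) else 0) = _
          rw [if_pos hg0r, hg0]
        · intro g _ hne'
          split_ifs with h
          · change (if ¬ p ∣ orderOf g then e.coeff (g : G ⧸ R) else 0) = 0
            rw [if_neg]
            intro hg
            exact hne' (unique_regular_rep R hR hRc (h.trans hg0.symm) hg hg0r)
          · rfl
        · intro h
          exact absurd (mem_univ _) h
    rw [← mkF_qf, h1, mkF_coeff]
  have huniq : ∀ e2 : MonoidAlgebra k (G ⧸ R), IsBlock e2 → e2 * quo R B = e2 → e2 = e := by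
    intro e2 he2 h2
    by_contra hcon
    have h3 := centralChar_quo (R := R) hB he2 h2 (mkF_mem hz)
    have h4 := centralChar_quo (R := R) hB he hee' (mkF_mem hz)
    rw [hze] at h3 h4
    rw [centralChar_self e he] at h4
    rw [charBlockStmt e2 e he2 he, if_neg hcon, ← h4] at h3
    exact zero_ne_one h3
  have hcomm : ∀ x, e * x = x * e := fun x => (Subalgebra.mem_center_iff.1 he.1 x).symm
  by_cases hf : quo R B - e = 0
  · rw [sub_eq_zero.1 hf]
    exact he
  · exfalso
    obtain ⟨e2, he2, h2⟩ := exists_block_mul (p := p) hf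
    have hfc : quo R B - e ∈ Subalgebra.center k (MonoidAlgebra k (G ⧸ R)) := sub_mem hQc he.1
    have hff : (quo R B - e) * (quo R B - e) = quo R B - e := by
      rw [sub_mul, mul_sub, mul_sub, hQQ, hee', he.2.1, ← hcomm, hee', sub_self, sub_zero]
    obtain ⟨-, h3⟩ := centralChar_of_mul_ne he2 hfc hff h2
    have h4 : e2 * quo R B = e2 := by
      calc e2 * quo R B = e2 * (quo R B - e) * quo R B := by rw [h3]
        _ = e2 * (quo R B * quo R B - e * quo R B) := by rw [mul_assoc, sub_mul]
        _ = e2 * (quo R B - e) := by rw [hQQ, hee']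
        _ = e2 := h3
    have h5 := huniq e2 he2 h4
    have h6 : e2 * e = 0 := by
      calc e2 * e = e2 * (quo R B - e) * e := by rw [h3]
        _ = e2 * (quo R B * e - e * e) := by rw [mul_assoc, sub_mul]
        _ = 0 := by rw [← hcomm, hee', he.2.1, sub_self, mul_zero]
    rw [h5, he.2.1] at h6
    exact he.2.2.1 h6

theorem numWeightsIn_quo_eq (R : Subgroup G) [R.Normal] (hR : IsPGroup p R) (hRc : R ≤ center G)
    {B : MonoidAlgebra k G} (hB : IsBlock B) :
    numWeightsIn p red B = numWeightsIn p red (quo R B) := by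
  have hB' := isBlock_quo (p := p) red R hR hRc hB
  rw [numWeightsIn_eq_numWc p red hB, ← numW_eq_numWc red B hB.1, numW_quo red R hR hB.1,
    numW_eq_numWc red _ hB'.1, ← numWeightsIn_eq_numWc p red hB']

end P179H364
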