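import Vale.Agent.P179.R2.H364.Qi1
import Vale.Agent.P179.R2.H292.Hyp2

/-!
# The roots of the blocks of a quotient by a central `p`-subgroup
-/

namespace P179H364

open Subgroup Finset P179H524 P179A P179C P179P P179Y P179H292 P179H725 P179H450 P179R P179H12
  P179H854

open P179B (inertialGroup inertialIndex regularElements)

open scoped Classical

universe u

variable {p : ℕ} [hp : Fact p.Prime] {k : Type u} [Field k] [IsAlgClosed k] [CharP k p]

theorem quoRoot : QuoRoot p k := by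
  intro G _ _ R _ hR hRc B D β hB hD hab hRD hβ hβB B' hB' hdom
  have := Fintype.ofFinite G
  have hfq := Fintype.ofFinite (G ⧸ R)
  have hDD' : IsDefectGroup B' (D.map (QuotientGroup.mk' R)) :=
    isDefectGroup_quo p hB hD hab R hR hB' hdom
  obtain ⟨β₀, hβ₀, hβ₀B⟩ := exists_subblock (p := p) hB' hDD'
  obtain ⟨g, hg, hgt⟩ := exists_conj_quo (p := p) hB hD hab hβ hβB R hR hRD hB' hdom rfl hβ₀ hβ₀B
  have habD' : ∀ a ∈ D.map (QuotientGroup.mk' R), ∀ b ∈ D.map (QuotientGroup.mk' R),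
      a * b = b * a := by
    rintro _ ⟨a, ha, rfl⟩ _ ⟨b, hb, rfl⟩
    rw [← map_mul, hab a ha b hb, map_mul]
  obtain ⟨lq, hlq, hlqz, hlqβ⟩ := exists_BP_of_subblock (p := p) hB' hDD' habD' hβ₀ hβ₀B
  have hDp' := (exists_BP_of_block (p := p) B' hB' _ hDD').1
  have habD'' : D.map (QuotientGroup.mk' R) ≤
      centralizer ((D.map (QuotientGroup.mk' R) : Subgroup (G ⧸ R)) : Set (G ⧸ R)) := by
    intro x hx
    rw [mem_centralizer_iff]
    intro y hy
    exact habD' y hy x hx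
  have hgN : (g : G ⧸ R) ∈ normalizer ((D.map (QuotientGroup.mk' R) : Subgroup (G ⧸ R)) :
      Set (G ⧸ R)) := by
    have key : ∀ n ∈ normalizer (D : Set G), ∀ y ∈ D.map (QuotientGroup.mk' R),
        (n : G ⧸ R) * y * (n : G ⧸ R)⁻¹ ∈ D.map (QuotientGroup.mk' R) := by
      rintro n hn _ ⟨d, hd, rfl⟩
      exact ⟨n * d * n⁻¹, (mem_normalizer_iff.1 hn d).1 hd, rfl⟩
    rw [mem_normalizer_iff]
    refine fun y => ⟨key g hg y, fun h => ?_⟩
    have h1 := key g⁻¹ (inv_mem hg) _ h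
    have h2 : ((g⁻¹ : G) : G ⧸ R) * ((g : G ⧸ R) * y * (g : G ⧸ R)⁻¹) *
        ((g⁻¹ : G) : G ⧸ R)⁻¹ = y := by
      rw [QuotientGroup.mk_inv]
      group
    rwa [h2] at h1
  have hl' := hlq.conjBP hgN
  obtain ⟨β', hβ', hlowβ'⟩ := exists_blk (BP.mulH hl' hDp' habD'' le_rfl)
  refine ⟨β', hDD', hβ', inducesTo_of_low hl' (fun z hz => ?_) hlowβ', fun t' ht' => ?_⟩
  · rw [cj_eq_of_inv (hz (g : G ⧸ R)), hlqz z hz]
  · rw [← stabT_eq_inertialGroup hβ' hlowβ'] at ht'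
    obtain ⟨t, rfl⟩ := QuotientGroup.mk_surjective t'
    have h1 : ((g * t * g⁻¹ : G) : G ⧸ R) ∈ inertialGroup (D.map (QuotientGroup.mk' R)) β₀ := by
      rw [← stabT_eq_inertialGroup hβ₀ hlqβ, QuotientGroup.mk_mul, QuotientGroup.mk_mul,
        QuotientGroup.mk_inv]
      refine ⟨mul_mem (mul_mem hgN ht'.1) (inv_mem hgN), fun z hz => ?_⟩
      have h2 := ht'.2 _ (hz.cj (inv_mem hgN))
      change lq (cj (g : G ⧸ R) (cj (t : G ⧸ R) (cj (g : G ⧸ R)⁻¹ z))) =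
        lq (cj (g : G ⧸ R) (cj (g : G ⧸ R)⁻¹ z)) at h2
      rw [cj_mul, cj_mul, h2, ← cj_mul, mul_inv_cancel, P179Y.cj_one]
    obtain ⟨s, hs, c, hc, hcs⟩ := hgt _ h1
    refine ⟨s, hs, fun d hd => ?_⟩
    have h2 : t = c * s := by
      rw [← hcs]
      group
    have hsN : s ∈ normalizer (D : Set G) := hs.1
    have h3 := hc (s * d * s⁻¹) ((mem_normalizer_iff.1 hsN d).1 hd)
    rw [← QuotientGroup.eq_one_iff] at h3
    have h4 : t * d * t⁻¹ = c * (s * d * s⁻¹) * c⁻¹ * (s * d * s⁻¹)⁻¹ * (s * d * s⁻¹) := by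
      rw [h2]
      group
    change ((t * d * t⁻¹ : G) : G ⧸ R) = _
    rw [h4, QuotientGroup.mk_mul, h3, one_mul]
    rfl

end P179H364
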