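import Vale.Agent.P179.R2.H364.Step
import Vale.Agent.P179.R2.H967.Dim2
import Vale.Agent.P179.R2.H12.Tst
import Vale.Agent.P179.R2.H854.Ln

/-!
# The step `P ↦ P C_D(z)` does not change the scalars
-/

namespace P179H364

open Subgroup Finset P179H524 P179A P179P P179C P179Y P179H12 P179H854

open scoped Classical

universe u

section grp

variable {G : Type} [Group G]

/-- the normaliser of `S` normalises the centraliser of `S` -/
theorem norm_cent {S : Subgroup G} {n : G} (hn : n ∈ normalizer (S : Set G)) :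
    n ∈ normalizer ((centralizer (S : Set G) : Subgroup G) : Set G) := fun x =>
  (conj_mem_cent hn x).symm

theorem pow_rel_mem {C T : Subgroup G} (hC : (C.subgroupOf T).Normal) {n : G} (hn : n ∈ T) :
    n ^ C.relIndex T ∈ C := by
  have := Subgroup.pow_index_mem (C.subgroupOf T) (⟨n, hn⟩ : T)
  exact this

/-- `C_D(z)` is normalised by the elements normalising `D` and commuting with `z` modulo
`C_G(D)` -/
theorem norm_fix [Finite G] {D : Subgroup G} {y z : G} (hy : y ∈ normalizer (D : Set G))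
    (hyz : y * z * y⁻¹ * z⁻¹ ∈ centralizer (D : Set G)) :
    y ∈ normalizer ((D ⊓ centralizer {z} : Subgroup G) : Set G) := by
  set Q : Subgroup G := D ⊓ centralizer {z} with hQ
  have hnQ : ∀ u ∈ Q, y * u * y⁻¹ ∈ Q := by
    intro u hu
    have huD : y * u * y⁻¹ ∈ D := (hy u).1 hu.1
    refine mem_inf.2 ⟨huD, mem_centralizer_singleton_iff.2 ?_⟩
    have h1 : z * u = u * z := (mem_centralizer_singleton_iff.1 (mem_inf.1 hu).2).symm
    have h2 := mem_centralizer_iff.1 hyz (y * u * y⁻¹) huD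
    have h3 : (y * z * y⁻¹) * (y * u * y⁻¹) = (y * u * y⁻¹) * (y * z * y⁻¹) := by
      calc (y * z * y⁻¹) * (y * u * y⁻¹) = y * (z * u) * y⁻¹ := by group
        _ = y * (u * z) * y⁻¹ := by rw [h1]
        _ = _ := by group
    have h5 : (y * z * y⁻¹ * z⁻¹)⁻¹ * (y * u * y⁻¹) =
        (y * u * y⁻¹) * (y * z * y⁻¹ * z⁻¹)⁻¹ := by
      rw [inv_mul_eq_iff_eq_mul, ← mul_assoc, ← h2]
      exact (mul_inv_cancel_right _ _).symm
    calc y * u * y⁻¹ * z = ((y * u * y⁻¹) * (y * z * y⁻¹ * z⁻¹)⁻¹) * (y * z * y⁻¹) := by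
          group
      _ = ((y * z * y⁻¹ * z⁻¹)⁻¹ * (y * u * y⁻¹)) * (y * z * y⁻¹) := by rw [h5]
      _ = (y * z * y⁻¹ * z⁻¹)⁻¹ * ((y * u * y⁻¹) * (y * z * y⁻¹)) := by
          rw [mul_assoc]
      _ = (y * z * y⁻¹ * z⁻¹)⁻¹ * ((y * z * y⁻¹) * (y * u * y⁻¹)) := by rw [h3]
      _ = z * (y * u * y⁻¹) := by group
  have hle : Q.map (MulAut.conj y).toMonoidHom ≤ Q := by
    rintro _ ⟨u, hu, rfl⟩
    exact hnQ u hu
  have heq : Q.map (MulAut.conj y).toMonoidHom = Q := by
    apply Subgroup.eq_of_le_of_card_ge hle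
    rw [Subgroup.card_map_of_injective (MulAut.conj y).injective]
  intro u
  constructor
  · exact fun hu => hnQ u hu
  · intro hu
    have h1 : y * u * y⁻¹ ∈ Q.map (MulAut.conj y).toMonoidHom := by
      rw [heq]
      exact hu
    obtain ⟨v, hv, hvu⟩ := h1
    have h2 : y * v * y⁻¹ = y * u * y⁻¹ := hvu
    have h3 : v = u := mul_left_cancel (mul_right_cancel h2)
    rwa [← h3]

theorem norm_sup {P Q : Subgroup G} {y : G} (hP : y ∈ normalizer (P : Set G))
    (hQ : y ∈ normalizer (Q : Set G)) : y ∈ normalizer ((P ⊔ Q : Subgroup G) : Set G) := by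
  rw [mem_normalizer_iff_map_conj_eq] at hP hQ ⊢
  rw [Subgroup.map_sup, hP, hQ]

end grp

section main

/-- the surjectivity of `F ↦ e_H * F|_{Hz}` -/
def OntoStmt (p : ℕ) (k : Type u) [Field k] : Prop :=
  ∀ (G : Type) [Group G] [Fintype G] (D P : Subgroup G) (l : (G → k) → k), BP p D l →
    IsPGroup p D → D ≤ centralizer (D : Set G) →
    ¬ p ∣ (centralizer (D : Set G)).relIndex (stabT D l) → P ≤ D →
    (∀ n ∈ stabT D l, n ∈ centralizer (P : Set G) → n ∈ centralizer (D : Set G)) →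
    ∀ z ∈ stabT D l ⊓ normalizer (P : Set G),
    ∀ b : MonoidAlgebra k (centralizer (P : Set G)), IsBlock b →
      Low (centralizer (P : Set G)) l b →
    ∀ b' : MonoidAlgebra k (centralizer ((P ⊔ (D ⊓ centralizer {z}) : Subgroup G) : Set G)),
      IsBlock b' → Low (centralizer ((P ⊔ (D ⊓ centralizer {z}) : Subgroup G) : Set G)) l b' →
    ∀ f ∈ Mz (centralizer ((P ⊔ (D ⊓ centralizer {z}) : Subgroup G) : Set G)) z
        (bF (centralizer ((P ⊔ (D ⊓ centralizer {z}) : Subgroup G) : Set G)) b'),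
      ∃ F ∈ Mz (centralizer (P : Set G)) z (bF (centralizer (P : Set G)) b),
        conv (bF (centralizer ((P ⊔ (D ⊓ centralizer {z}) : Subgroup G) : Set G)) b')
          (cutz (centralizer ((P ⊔ (D ⊓ centralizer {z}) : Subgroup G) : Set G)) z F) = f

/-- the scalars form a pairing -/
def AlphaStmt (p : ℕ) (k : Type u) [Field k] : Prop :=
  ∀ (G : Type) [Group G] [Fintype G] (D P : Subgroup G) (l : (G → k) → k), BP p D l →
    IsPGroup p D → D ≤ centralizer (D : Set G) →
    ¬ p ∣ (centralizer (D : Set G)).relIndex (stabT D l) → P ≤ D →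
    (∀ n ∈ stabT D l, n ∈ centralizer (P : Set G) → n ∈ centralizer (D : Set G)) →
    ∃ α : G → G → k, ∀ y ∈ stabT D l ⊓ normalizer (P : Set G),
      ∀ z ∈ stabT D l ⊓ normalizer (P : Set G), y * z * y⁻¹ * z⁻¹ ∈ centralizer (D : Set G) →
        (∀ a, Sc p l P y z a ↔ a = α y z) ∧ α y z * α z y = 1 ∧ α y (z * y⁻¹) = α y z

theorem isBlock_prim {k : Type u} [Field k] {H : Type} [Group H] [Finite H]
    {b : MonoidAlgebra k H} (hb : IsBlock b) :
    Prim (⟨b, hb.1⟩ : Subalgebra.center k (MonoidAlgebra k H)) := by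
  refine ⟨Subtype.ext hb.2.1, fun h => hb.2.2.1 (congrArg Subtype.val h), ?_⟩
  rintro ⟨e, he⟩ h1 h2
  rcases hb.2.2.2 e he (congrArg Subtype.val h1) (congrArg Subtype.val h2) with h | h
  · exact Or.inl (Subtype.ext h)
  · exact Or.inr (Subtype.ext h)

variable {p : ℕ} [hp : Fact p.Prime] {k : Type u} [Field k] [IsAlgClosed k] [CharP k p]

theorem dim_low (red : integralClosure ℤ ℂ →+* k) {G : Type} [Group G] [Fintype G]
    {D : Subgroup G} {l : (G → k) → k} (hl : BP p D l) (hD : IsPGroup p D)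
    (hab : D ≤ centralizer (D : Set G)) {H : Subgroup G}
    (hCH : centralizer (D : Set G) ≤ H)
    (hnil : ∀ n ∈ stabT D l, n ∈ H → n ∈ centralizer (D : Set G)) {z : G}
    (hzT : z ∈ stabT D l) (hz : z ∈ normalizer (H : Set G)) {b : MonoidAlgebra k H}
    (hb : IsBlock b) (hlb : Low H l b) :
    Module.finrank k (Mz H z (bF H b)) = Nat.card {u : G // u ∈ D ∧ z * u * z⁻¹ = u} := by
  refine P179H967.finrank_MzG_D red hl hD hab hCH hnil hzT hz (invOn_bF hb.1) ?_
    (Low.one hb hlb)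
  have h1 := isBlock_prim hb
  have h2 : (⟨mkF (fun h : H => bF H b h), mkF_mem fun g x => (invOn_bF hb.1).1 g g.2 x⟩ :
      Subalgebra.center k (MonoidAlgebra k H)) = ⟨b, hb.1⟩ := Subtype.ext (mkF_bF b)
  rw [h2]
  exact h1

/-- **the step** -/
theorem stepStmt (red : integralClosure ℤ ℂ →+* k) (honto : OntoStmt p k)
    (hal : AlphaStmt p k) : StepStmt p k := by
  intro G _ _ D P l hl hD hab hT hPD hnil y hy z hz hyz a ha b hb hlb ψ hψ
  by_cases hψ0 : ψ = 0
  · rw [hψ0]
    funext g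
    simp [cj]
  obtain ⟨al, hal⟩ := hal G D P l hl hD hab hT hPD hnil
  set S : Subgroup G := stabT D l ⊓ normalizer (P : Set G) with hS
  have hcomm1 : ∀ x : G, x * 1 * x⁻¹ * 1⁻¹ ∈ centralizer (D : Set G) := fun x => by
    have h1 : x * 1 * x⁻¹ * 1⁻¹ = 1 := by group
    rw [h1]
    exact one_mem _
  have hcomm2 : ∀ x : G, 1 * x * 1⁻¹ * x⁻¹ ∈ centralizer (D : Set G) := fun x => by
    have h1 : 1 * x * 1⁻¹ * x⁻¹ = 1 := by group
    rw [h1]
    exact one_mem _
  have hcomm3 : z * z * z⁻¹ * z⁻¹ ∈ centralizer (D : Set G) := by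
    have h1 : z * z * z⁻¹ * z⁻¹ = 1 := by group
    rw [h1]
    exact one_mem _
  -- the scalar of `z` on the line at `z` is one
  have hzz : cj z ψ = ψ := by
    have h1 : al 1 z = 1 := by
      have h2 := ((hal 1 (one_mem _) z hz (hcomm2 z)).1 1).1 (fun b _ _ ψ _ => by
        rw [cj_one, one_smul])
      exact h2.symm
    have h2 : al z 1 = 1 := by
      have h3 := (hal z hz 1 (one_mem _) (hcomm1 z)).2.1
      rwa [h1, mul_one] at h3
    have h3 : al z z = 1 := by
      have h4 := (hal z hz z hz hcomm3).2.2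
      rw [mul_inv_cancel] at h4
      rw [← h4, h2]
    have h4 := ((hal z hz z hz hcomm3).1 1).2 h3.symm b hb hlb ψ hψ
    rwa [one_smul] at h4
  have hyy : cj y ψ = al y z • ψ := ((hal y hy z hz hyz).1 _).2 rfl b hb hlb ψ hψ
  -- the smaller group
  set Q : Subgroup G := P ⊔ (D ⊓ centralizer {z}) with hQ
  have hPQ : P ≤ Q := le_sup_left
  have hQD : Q ≤ D := sup_le hPD inf_le_left
  have hDQ : centralizer (D : Set G) ≤ centralizer (Q : Set G) := centralizer_le hQD
  have hDP : centralizer (D : Set G) ≤ centralizer (P : Set G) := centralizer_le hPD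
  have hQP : centralizer (Q : Set G) ≤ centralizer (P : Set G) := centralizer_le hPQ
  have hnilQ : ∀ n ∈ stabT D l, n ∈ centralizer (Q : Set G) → n ∈ centralizer (D : Set G) :=
    fun n hn hn' => hnil n hn (hQP hn')
  have hzT : z ∈ stabT D l := (mem_inf.1 hz).1
  have hyT : y ∈ stabT D l := (mem_inf.1 hy).1
  have hzQ : z ∈ normalizer (Q : Set G) := norm_sup (mem_inf.1 hz).2 (norm_fix hzT.1 hcomm3)
  have hyQ : y ∈ normalizer (Q : Set G) := norm_sup (mem_inf.1 hy).2 (norm_fix hyT.1 hyz)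
  have hml : MulH (centralizer (Q : Set G)) l := BP.mulH hl hD hab hDQ
  obtain ⟨b', hb', hlb'⟩ := exists_blk hml
  have hez : cj z (bF (centralizer (Q : Set G)) b') = bF (centralizer (Q : Set G)) b' :=
    (mem_stH_iff hml hb' hlb' (norm_cent hzQ)).1 (stabT_le_stH hl hDQ hzT (norm_cent hzQ))
  have hey : cj y (bF (centralizer (Q : Set G)) b') = bF (centralizer (Q : Set G)) b' :=
    (mem_stH_iff hml hb' hlb' (norm_cent hyQ)).1 (stabT_le_stH hl hDQ hyT (norm_cent hyQ))
  have hzm : z ^ (centralizer (D : Set G)).relIndex (stabT D l) ∈ centralizer (D : Set G) := by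
    refine pow_rel_mem ?_ hzT
    exact normal_subgroupOf_of_le_normalizer
      ((stabT_le_norm D l).trans fun n hn => norm_cent hn)
  have hdim : Module.finrank k (Mz (centralizer (P : Set G)) z
        (bF (centralizer (P : Set G)) b)) ≤
      Module.finrank k (Mz (centralizer (Q : Set G)) z (bF (centralizer (Q : Set G)) b')) := by
    rw [dim_low red hl hD hab hDP hnil hzT (norm_cent (mem_inf.1 hz).2) hb hlb,
      dim_low red hl hD hab hDQ hnilQ hzT (norm_cent hzQ) hb' hlb']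
  obtain ⟨ψ', hψ', hne, hpr', -, hyψ'⟩ := step p hQP (norm_cent hzQ) hT (hDQ hzm)
    (invOn_bF hb'.1) (conv_bF_self hb') hez
    (honto G D P l hl hD hab hT hPD hnil z hz b hb hlb b' hb' hlb') hdim
    (ψ := ψ) ⟨hψ.supp, hψ.inv, hψ.mul⟩ hψ0 hψ.reg hzz
  have h1 : cj y ψ' = al y z • ψ' := hyψ' y (norm_cent hyQ) (hDQ hyz) hey _ hyy
  have h2 : cj y ψ' = a • ψ' :=
    ha b' hb' hlb' ψ' ⟨hψ'.1, hψ'.2.1, hpr', hψ'.2.2⟩
  have h3 : al y z = a := by
    by_contra hcon
    apply hne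
    have h4 : (al y z - a) • ψ' = 0 := by rw [sub_smul, ← h1, ← h2, sub_self]
    exact (smul_eq_zero.1 h4).resolve_left (sub_ne_zero.2 hcon)
  rw [hyy, h3]

end main

end P179H364
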