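import Vale.Agent.P179.R2.H12.Nor

/-!
# Derivations of a group algebra given by cocycles, and corestriction from a subgroup
-/

namespace P179H364W

open Subgroup Finset P179H524 P179C P179A P179P P179Y

open scoped Classical

section Coc

/-- a cocycle which vanishes on the stabilisers is a coboundary -/
theorem coc_triv {K X V : Type*} [Group K] [AddCommGroup V] (act : K → X → X)
    (act1 : ∀ x, act 1 x = x) (actm : ∀ g h x, act (g * h) x = act g (act h x))
    (S : X → Prop) (hS : ∀ g x, S x → S (act g x)) (c : K → X → V)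
    (hc : ∀ g h x, S x → c (g * h) x = c g (act h x) + c h x)
    (h0 : ∀ g x, S x → act g x = x → c g x = 0) :
    ∃ η : X → V, ∀ g x, S x → c g x = η (act g x) - η x := by
  let st : Setoid X := ⟨fun x y => ∃ g, act g x = y, ⟨fun x => ⟨1, act1 x⟩, by
    rintro x y ⟨g, rfl⟩
    exact ⟨g⁻¹, by rw [← actm, inv_mul_cancel, act1]⟩, by
    rintro x y z ⟨g, rfl⟩ ⟨h, rfl⟩
    exact ⟨h * g, by rw [actm]⟩⟩⟩
  let b : X → X := fun x => (Quotient.mk st x).out
  have hb : ∀ x, ∃ g, act g (b x) = x := fun x => Quotient.mk_out (s := st) x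
  choose u hu using hb
  have hbg : ∀ g x, b (act g x) = b x := by
    intro g x
    have h1 : Quotient.mk st (act g x) = Quotient.mk st x :=
      (Quotient.sound (s := st) (⟨g, rfl⟩ : st.r x (act g x))).symm
    change (Quotient.mk st (act g x)).out = (Quotient.mk st x).out
    rw [h1]
  have hSb : ∀ x, S x → S (b x) := by
    intro x hx
    have h1 : act (u x)⁻¹ x = b x := by
      calc act (u x)⁻¹ x = act (u x)⁻¹ (act (u x) (b x)) := by rw [hu]
        _ = b x := by rw [← actm, inv_mul_cancel, act1]
    rw [← h1]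
    exact hS _ _ hx
  refine ⟨fun x => c (u x) (b x), fun g x hx => ?_⟩
  have h1 : act (g * u x) (b x) = act (u (act g x)) (b x) := by
    rw [actm, hu, ← hbg g x, hu]
  have h2 : act ((u (act g x))⁻¹ * (g * u x)) (b x) = b x := by
    rw [actm, h1, ← actm, inv_mul_cancel, act1]
  have h3 := hc (u (act g x)) ((u (act g x))⁻¹ * (g * u x)) (b x) (hSb x hx)
  rw [h2, h0 _ _ (hSb x hx) h2, add_zero, mul_inv_cancel_left,
    hc g (u x) (b x) (hSb x hx), hu] at h3
  change c g x = c (u (act g x)) (b (act g x)) - c (u x) (b x)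
  rw [hbg, ← h3]
  abel

end Coc

section Der

variable {k : Type*} [Field k] {G : Type*} [Group G]

/-- the group element -/
noncomputable def sg (g : G) : MonoidAlgebra k G := MonoidAlgebra.single g 1

theorem sg_mul (g h : G) : (sg g * sg h : MonoidAlgebra k G) = sg (g * h) := by
  simp [sg, MonoidAlgebra.single_mul_single]

theorem sg_one : (sg (1 : G) : MonoidAlgebra k G) = 1 := rfl

theorem sg_inv_mul (g : G) : (sg g⁻¹ * sg g : MonoidAlgebra k G) = 1 := by
  rw [sg_mul, inv_mul_cancel, sg_one]

theorem sg_mul_inv (g : G) : (sg g * sg g⁻¹ : MonoidAlgebra k G) = 1 := by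
  rw [sg_mul, mul_inv_cancel, sg_one]

/-- conjugation -/
noncomputable def cn (g : G) (a : MonoidAlgebra k G) : MonoidAlgebra k G := sg g * a * sg g⁻¹

theorem cn_one (a : MonoidAlgebra k G) : cn 1 a = a := by
  rw [cn, inv_one, sg_one, one_mul, mul_one]

theorem cn_mul (g h : G) (a : MonoidAlgebra k G) : cn (g * h) a = cn g (cn h a) := by
  simp only [cn, mul_inv_rev, ← sg_mul, mul_assoc]

theorem cn_add (g : G) (a b : MonoidAlgebra k G) : cn g (a + b) = cn g a + cn g b := by
  simp only [cn, mul_add, add_mul]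

theorem cn_sub (g : G) (a b : MonoidAlgebra k G) : cn g (a - b) = cn g a - cn g b := by
  simp only [cn, mul_sub, sub_mul]

theorem cn_smul (g : G) (c : k) (a : MonoidAlgebra k G) : cn g (c • a) = c • cn g a := by
  simp only [cn, mul_smul_comm, smul_mul_assoc]

theorem cn_zero (g : G) : cn g (0 : MonoidAlgebra k G) = 0 := by
  simp only [cn, mul_zero, zero_mul]

theorem cn_sum {ι : Type*} (g : G) (s : Finset ι) (f : ι → MonoidAlgebra k G) :
    cn g (∑ i ∈ s, f i) = ∑ i ∈ s, cn g (f i) := by
  simp only [cn, Finset.mul_sum, Finset.sum_mul]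

theorem cn_mul' (g : G) (a b : MonoidAlgebra k G) : cn g (a * b) = cn g a * cn g b := by
  unfold cn
  calc sg g * (a * b) * sg g⁻¹ = sg g * a * 1 * b * sg g⁻¹ := by simp only [mul_one, mul_assoc]
    _ = _ := by rw [← sg_inv_mul g]; simp only [mul_assoc]

theorem cn_sg (g h : G) : cn g (sg h : MonoidAlgebra k G) = sg (g * h * g⁻¹) := by
  rw [cn, sg_mul, sg_mul]

theorem coeff_cn (g y : G) (a : MonoidAlgebra k G) : (cn g a).coeff y = a.coeff (g⁻¹ * y * g) := by
  unfold cn sg
  rw [MonoidAlgebra.coeff_mul_single_apply, MonoidAlgebra.coeff_single_mul_apply]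
  simp [mul_assoc]

/-- `cn g a = a` in terms of coefficients -/
theorem cn_eq_iff {g : G} {a : MonoidAlgebra k G} :
    cn g a = a ↔ ∀ x, a.coeff (g * x * g⁻¹) = a.coeff x := by
  constructor
  · intro h x
    conv_lhs => rw [← h, coeff_cn]
    congr 1
    group
  · intro h
    ext x
    rw [coeff_cn, ← h]
    congr 1
    group

/-- cocycles -/
def IsCoc (f : G → MonoidAlgebra k G) : Prop := ∀ g h, f (g * h) = f g + cn g (f h)

variable [Fintype G]

/-- the decomposition of an element -/
theorem eq_sum (a : MonoidAlgebra k G) : a = ∑ g, a.coeff g • sg g := by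
  ext y
  simp [sg, MonoidAlgebra.coeff_sum, MonoidAlgebra.coeff_single]

/-- the derivation of a cocycle -/
noncomputable def der (f : G → MonoidAlgebra k G) : MonoidAlgebra k G →ₗ[k] MonoidAlgebra k G where
  toFun a := ∑ g, a.coeff g • (f g * sg g)
  map_add' a b := by simp [add_smul, Finset.sum_add_distrib]
  map_smul' c a := by simp [Finset.smul_sum, smul_smul]

theorem der_sg (f : G → MonoidAlgebra k G) (g : G) : der f (sg g) = f g * sg g := by
  change ∑ h, (sg g : MonoidAlgebra k G).coeff h • (f h * sg h) = _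
  rw [Finset.sum_eq_single g]
  · simp [sg]
  · intro h _ hh
    simp [sg, MonoidAlgebra.coeff_single, hh.symm]
  · simp

theorem der_mul {f : G → MonoidAlgebra k G} (hf : IsCoc f) (a b : MonoidAlgebra k G) :
    der f (a * b) = der f a * b + a * der f b := by
  induction a using MonoidAlgebra.induction_on with
  | of g =>
    induction b using MonoidAlgebra.induction_on with
    | of h =>
      change der f (sg g * sg h) = der f (sg g) * sg h + sg g * der f (sg h)
      rw [sg_mul, der_sg, der_sg, der_sg, hf, add_mul, ← sg_mul, cn]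
      congr 1
      · simp only [mul_assoc]
      · calc sg g * f h * sg g⁻¹ * (sg g * sg h) = sg g * f h * (sg g⁻¹ * sg g) * sg h := by
              simp only [mul_assoc]
          _ = _ := by rw [sg_inv_mul, mul_one]; simp only [mul_assoc]
    | add x y hx hy =>
      rw [mul_add, map_add, hx, hy, map_add, mul_add, mul_add]
      abel
    | smul r x hx =>
      rw [mul_smul_comm, map_smul, hx, map_smul, smul_add, mul_smul_comm, mul_smul_comm]
  | add x y hx hy =>
    rw [add_mul, map_add, hx, hy, map_add, add_mul, add_mul]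
    abel
  | smul r x hx =>
    rw [smul_mul_assoc, map_smul, hx, map_smul, smul_add, smul_mul_assoc, smul_mul_assoc]

end Der

end P179H364W
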