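import Vale.Agent.P179.R2.H364.Wa1

/-!
# Corestriction of additive cocycles from a subgroup
-/

namespace P179H364W

open Subgroup Finset P179H524 P179C P179A P179P P179Y

open scoped Classical

section Quot

variable {G : Type*} [Group G] {D : Subgroup G}

theorem out_mem (D : Subgroup G) (t : G) : ((t : G ⧸ D).out)⁻¹ * t ∈ D :=
  QuotientGroup.eq.1 (Quotient.out_eq' (t : G ⧸ D))

theorem smul_out (g : G) (α : G ⧸ D) : ∃ u ∈ D, (g • α).out = g * α.out * u := by
  refine ⟨(g * α.out)⁻¹ * (g • α).out, ?_, by group⟩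
  apply QuotientGroup.eq.1
  have h1 : (((g • α).out : G) : G ⧸ D) = g • α := Quotient.out_eq' (g • α)
  have h2 : ((α.out : G) : G ⧸ D) = α := Quotient.out_eq' α
  rw [h1]
  conv_rhs => rw [← h2]
  rfl

theorem smul_eq_iff (g : G) (α : G ⧸ D) : g • α = α ↔ (α.out)⁻¹ * g * α.out ∈ D := by
  have h1 : g • α = ((g * α.out : G) : G ⧸ D) := by
    conv_lhs => rw [← Quotient.out_eq' α]
    rfl
  rw [h1]
  constructor
  · intro h
    have h2 : ((g * α.out : G) : G ⧸ D) = ((α.out : G) : G ⧸ D) := by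
      rw [h]
      exact (Quotient.out_eq' α).symm
    have h3 := QuotientGroup.eq.1 h2.symm
    rwa [← mul_assoc] at h3
  · intro h
    have h2 : ((α.out : G) : G ⧸ D) = ((g * α.out : G) : G ⧸ D) := by
      apply QuotientGroup.eq.2
      rwa [← mul_assoc]
    rw [← h2]
    exact Quotient.out_eq' α

/-- reindexing of sums over `G ⧸ D` -/
theorem sum_smul {V : Type*} [AddCommMonoid V] [Fintype (G ⧸ D)] (g : G) {F : G → V}
    (hF : ∀ t, ∀ u ∈ D, F (t * u) = F t) :
    ∑ α : G ⧸ D, F (g * α.out) = ∑ α : G ⧸ D, F α.out := by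
  rw [← Equiv.sum_comp (MulAction.toPerm g) fun α : G ⧸ D => F α.out]
  refine Finset.sum_congr rfl fun α _ => ?_
  rw [MulAction.toPerm_apply]
  obtain ⟨u, hu, he⟩ := smul_out g α
  rw [he, hF _ u hu]

end Quot

section Cor

variable {k : Type*} [Field k] {G : Type*} [Group G] {D : Subgroup G}

/-- the cochain `ε` -/
noncomputable def eps (D : Subgroup G) (del : G → k) (t : G) : k := del (((t : G ⧸ D).out)⁻¹ * t)

variable {del : G → k}

theorem eps_mul (hdel : ∀ u ∈ D, ∀ v ∈ D, del (u * v) = del u + del v) (t : G) {u : G}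
    (hu : u ∈ D) : eps D del (t * u) = eps D del t + del u := by
  have h1 : ((t * u : G) : G ⧸ D) = (t : G ⧸ D) := by
    apply QuotientGroup.eq.2
    have : (t * u)⁻¹ * t = u⁻¹ := by group
    rw [this]
    exact inv_mem hu
  unfold eps
  rw [h1, ← mul_assoc, hdel _ (out_mem D t) _ hu]

theorem eps_sub (hdel : ∀ u ∈ D, ∀ v ∈ D, del (u * v) = del u + del v) (s t : G) {u : G}
    (hu : u ∈ D) : eps D del (t * u) - eps D del (s * u) = eps D del t - eps D del s := by
  rw [eps_mul hdel t hu, eps_mul hdel s hu]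
  ring

theorem del_one (hdel : ∀ u ∈ D, ∀ v ∈ D, del (u * v) = del u + del v) : del 1 = 0 := by
  have := hdel 1 (one_mem _) 1 (one_mem _)
  rw [mul_one] at this
  exact left_eq_add.1 this

theorem del_inv (hdel : ∀ u ∈ D, ∀ v ∈ D, del (u * v) = del u + del v) {u : G} (hu : u ∈ D) :
    del u⁻¹ = - del u := by
  have := hdel u hu u⁻¹ (inv_mem hu)
  rw [mul_inv_cancel, del_one hdel] at this
  linear_combination -this

theorem cn_out {c : MonoidAlgebra k G} (hc : ∀ u ∈ D, cn u c = c) (t : G) {u : G} (hu : u ∈ D) :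
    cn (t * u) c = cn t c := by
  rw [cn_mul, hc u hu]

variable [Fintype G]

/-- the relative trace -/
noncomputable def tr (D : Subgroup G) (c : MonoidAlgebra k G) : MonoidAlgebra k G :=
  ∑ α : G ⧸ D, cn α.out c

theorem cn_tr {c : MonoidAlgebra k G} (hc : ∀ u ∈ D, cn u c = c) (g : G) :
    cn g (tr D c) = tr D c := by
  unfold tr
  rw [cn_sum]
  simp only [← cn_mul]
  exact sum_smul g (F := fun t => cn t c) fun t u hu => cn_out hc t hu

/-- the corestriction of the cocycle `u ↦ δ(u) c` -/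
noncomputable def corf (D : Subgroup G) (del : G → k) (c : MonoidAlgebra k G) (g : G) :
    MonoidAlgebra k G :=
  ∑ α : G ⧸ D, (eps D del α.out - eps D del (g⁻¹ * α.out)) • cn α.out c

theorem isCoc_corf (hdel : ∀ u ∈ D, ∀ v ∈ D, del (u * v) = del u + del v)
    {c : MonoidAlgebra k G} (hc : ∀ u ∈ D, cn u c = c) : IsCoc (corf D del c) := by
  intro g h
  have h1 : cn g (corf D del c h) =
      ∑ α : G ⧸ D, (eps D del (g⁻¹ * α.out) - eps D del ((g * h)⁻¹ * α.out)) • cn α.out c := by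
    rw [← sum_smul g (F := fun t => (eps D del (g⁻¹ * t) - eps D del ((g * h)⁻¹ * t)) • cn t c)]
    · unfold corf
      rw [cn_sum]
      refine Finset.sum_congr rfl fun α _ => ?_
      rw [cn_smul, ← cn_mul]
      have e1 : g⁻¹ * (g * α.out) = α.out := by group
      have e2 : (g * h)⁻¹ * (g * α.out) = h⁻¹ * α.out := by group
      rw [e1, e2]
    · intro t u hu
      have e1 : g⁻¹ * (t * u) = g⁻¹ * t * u := by group
      have e2 : (g * h)⁻¹ * (t * u) = (g * h)⁻¹ * t * u := by group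
      rw [e1, e2, eps_sub hdel _ _ hu, cn_out hc t hu]
  rw [h1]
  unfold corf
  rw [← Finset.sum_add_distrib]
  refine Finset.sum_congr rfl fun α _ => ?_
  rw [← add_smul]
  congr 1
  ring

/-- the coboundary lemma -/
theorem cob (hdel : ∀ u ∈ D, ∀ v ∈ D, del (u * v) = del u + del v) (K : Subgroup G)
    (b : G ⧸ D → MonoidAlgebra k G) (hb : ∀ g ∈ K, ∀ α, b (g • α) = cn g (b α)) (dl : G → k)
    (hdl : ∀ u ∈ K, ∀ v ∈ K, dl (u * v) = dl u + dl v)
    (h0 : ∀ g ∈ K, ∀ α : G ⧸ D, ∀ h : G, g • α = α → g * h * g⁻¹ = h → (b α).coeff h ≠ 0 →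
      eps D del (g * α.out) - eps D del α.out = dl g) :
    ∃ ξ : MonoidAlgebra k G, ∀ g ∈ K,
      ∑ α : G ⧸ D, (eps D del α.out - eps D del (g⁻¹ * α.out)) • b α =
        dl g • ∑ α : G ⧸ D, b α + ξ - cn g ξ := by
  let act : K → (G ⧸ D) × G → (G ⧸ D) × G := fun g x => ((g : G) • x.1, (g : G) * x.2 * (g : G)⁻¹)
  have act1 : ∀ x, act 1 x = x := by
    intro x
    simp [act]
  have actm : ∀ g h x, act (g * h) x = act g (act h x) := by
    intro g h x
    simp only [act, Subgroup.coe_mul, mul_smul, mul_inv_rev, mul_assoc]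
  have hφ : ∀ (g : K) (x : (G ⧸ D) × G), (b (act g x).1).coeff (act g x).2 =
      (b x.1).coeff x.2 := by
    intro g x
    change (b ((g : G) • x.1)).coeff ((g : G) * x.2 * (g : G)⁻¹) = _
    rw [hb g g.2, coeff_cn]
    congr 1
    group
  obtain ⟨η, hη⟩ := coc_triv act act1 actm (fun x => (b x.1).coeff x.2 ≠ 0)
    (fun g x hx => by rwa [hφ g x])
    (fun g x => eps D del ((g : G) * x.1.out) - eps D del x.1.out - dl g) (by
      intro g h x _
      obtain ⟨u, hu, he⟩ := smul_out (h : G) x.1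
      change eps D del (((g * h : K) : G) * x.1.out) - eps D del x.1.out - dl ((g * h : K) : G) =
        (eps D del ((g : G) * ((h : G) • x.1).out) - eps D del ((h : G) • x.1).out - dl g) +
          (eps D del ((h : G) * x.1.out) - eps D del x.1.out - dl h)
      rw [he]
      have e1 : (g : G) * ((h : G) * x.1.out * u) = (g : G) * (h : G) * x.1.out * u := by
        simp only [mul_assoc]
      rw [e1, eps_sub hdel _ _ hu, Subgroup.coe_mul, hdl _ g.2 _ h.2]
      ring) (by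
      intro g x hx hg
      have h1 : (g : G) • x.1 = x.1 := congrArg Prod.fst hg
      have h2 : (g : G) * x.2 * (g : G)⁻¹ = x.2 := congrArg Prod.snd hg
      rw [h0 g g.2 x.1 x.2 h1 h2 hx, sub_self])
  refine ⟨∑ x : (G ⧸ D) × G, ((b x.1).coeff x.2 * η x) • sg x.2, fun g hg => ?_⟩
  have hdg : dl g⁻¹ = - dl g := del_inv (D := K) hdl hg
  have hexp : ∀ r : (G ⧸ D) → k, ∑ α : G ⧸ D, r α • b α =
      ∑ x : (G ⧸ D) × G, (r x.1 * (b x.1).coeff x.2) • (sg x.2 : MonoidAlgebra k G) := by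
    intro r
    rw [Fintype.sum_prod_type]
    refine Finset.sum_congr rfl fun α _ => ?_
    conv_lhs => rw [eq_sum (b α), Finset.smul_sum]
    refine Finset.sum_congr rfl fun h _ => ?_
    rw [smul_smul]
  have h1 : cn g (∑ x : (G ⧸ D) × G, ((b x.1).coeff x.2 * η x) • (sg x.2 : MonoidAlgebra k G)) =
      ∑ x : (G ⧸ D) × G, ((b x.1).coeff x.2 * η (act ⟨g⁻¹, inv_mem hg⟩ x)) •
        (sg x.2 : MonoidAlgebra k G) := by
    rw [cn_sum]
    have hinv : ∀ x, act ⟨g, hg⟩ (act ⟨g⁻¹, inv_mem hg⟩ x) = x := by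
      intro x
      rw [← actm]
      have : (⟨g, hg⟩ * ⟨g⁻¹, inv_mem hg⟩ : K) = 1 := by
        ext
        simp
      rw [this, act1]
    have hinv' : ∀ x, act ⟨g⁻¹, inv_mem hg⟩ (act ⟨g, hg⟩ x) = x := by
      intro x
      rw [← actm]
      have : (⟨g⁻¹, inv_mem hg⟩ * ⟨g, hg⟩ : K) = 1 := by
        ext
        simp
      rw [this, act1]
    let e : (G ⧸ D) × G ≃ (G ⧸ D) × G := ⟨act ⟨g, hg⟩, act ⟨g⁻¹, inv_mem hg⟩, hinv', hinv⟩
    rw [← Equiv.sum_comp e fun x =>
      ((b x.1).coeff x.2 * η (act ⟨g⁻¹, inv_mem hg⟩ x)) • (sg x.2 : MonoidAlgebra k G)]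
    refine Finset.sum_congr rfl fun x _ => ?_
    change _ = ((b (act ⟨g, hg⟩ x).1).coeff (act ⟨g, hg⟩ x).2 *
      η (act ⟨g⁻¹, inv_mem hg⟩ (act ⟨g, hg⟩ x))) • sg (act ⟨g, hg⟩ x).2
    rw [hφ, hinv', cn_smul, cn_sg]
  have h2 : ∑ α : G ⧸ D, b α =
      ∑ x : (G ⧸ D) × G, ((b x.1).coeff x.2) • (sg x.2 : MonoidAlgebra k G) := by
    have := hexp fun _ => 1
    simpa only [one_smul, one_mul] using this
  rw [h1, h2, hexp, Finset.smul_sum, ← Finset.sum_add_distrib, ← Finset.sum_sub_distrib]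
  refine Finset.sum_congr rfl fun x _ => ?_
  by_cases hx : (b x.1).coeff x.2 = 0
  · simp [hx]
  · have h3 := hη ⟨g⁻¹, inv_mem hg⟩ x hx
    change eps D del (g⁻¹ * x.1.out) - eps D del x.1.out - dl g⁻¹ = _ at h3
    rw [smul_smul, ← add_smul, ← sub_smul]
    congr 1
    rw [hdg] at h3
    linear_combination (-(b x.1).coeff x.2) * h3

end Cor

end P179H364W
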