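import Vale.Agent.P179.R2.H364.Wa2

/-!
# The core lemma, abstract form
-/

namespace P179H364W

open Subgroup Finset P179H524 P179C P179A P179P P179Y

open scoped Classical

section Alg

variable {A : Type*} [Ring A] (d : A → A)

/-- modification of a derivation by an inner derivation -/
def pd (η s : A) : A := d s - (η * s - s * η)

variable {d}

theorem pd_mul (hd : ∀ a b, d (a * b) = d a * b + a * d b) (η a b : A) :
    pd d η (a * b) = pd d η a * b + a * pd d η b := by
  unfold pd
  rw [hd]
  noncomm_ring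

theorem idem_mid (hd : ∀ a b, d (a * b) = d a * b + a * d b) {i : A} (hi : i * i = i) :
    i * d i * i = 0 := by
  have h1 : d i = d i * i + i * d i := by
    conv_lhs => rw [← hi]
    exact hd i i
  have h2 : i * d i = i * d i * i + i * d i := by
    calc i * d i = i * (d i * i + i * d i) := by rw [← h1]
      _ = i * d i * i + (i * i) * d i := by noncomm_ring
      _ = _ := by rw [hi]
  exact (right_eq_add.1 h2)

theorem pd_idem (hd : ∀ a b, d (a * b) = d a * b + a * d b) {i : A} (hi : i * i = i) (ξ : A) :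
    pd d (d i * i - i * d i + i * ξ * i) i = 0 := by
  have h0 := idem_mid hd hi
  have h1 : d i = d i * i + i * d i := by
    conv_lhs => rw [← hi]
    exact hd i i
  unfold pd
  have h2 : (d i * i - i * d i + i * ξ * i) * i = d i * i + i * ξ * i := by
    calc _ = d i * (i * i) - i * d i * i + i * ξ * (i * i) := by noncomm_ring
      _ = _ := by rw [hi, h0, sub_zero]
  have h3 : i * (d i * i - i * d i + i * ξ * i) = - (i * d i) + i * ξ * i := by
    calc _ = i * d i * i - i * i * d i + i * i * ξ * i := by noncomm_ring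
      _ = _ := by rw [hi, h0, zero_sub]
  rw [h2, h3]
  calc d i - (d i * i + i * ξ * i - (- (i * d i) + i * ξ * i)) = d i - (d i * i + i * d i) := by
        abel
    _ = 0 := by rw [← h1, sub_self]

theorem eta_mid (hd : ∀ a b, d (a * b) = d a * b + a * d b) {i : A} (hi : i * i = i) (ξ : A) :
    i * (d i * i - i * d i + i * ξ * i) * i = i * ξ * i := by
  have h0 := idem_mid hd hi
  calc _ = i * d i * (i * i) - (i * i) * d i * i + (i * i) * ξ * (i * i) := by noncomm_ring
    _ = _ := by rw [hi, h0, sub_zero, zero_add]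

end Alg

section Core

variable {p : ℕ} [hp : Fact p.Prime] {k : Type*} [Field k] [CharP k p] {G : Type*} [Group G]
  [Fintype G] {D : Subgroup G}

omit [Fintype G] in
theorem mem_center_of_cn {a : MonoidAlgebra k G} (h : ∀ g, cn g a = a) :
    a ∈ Subalgebra.center k (MonoidAlgebra k G) := by
  rw [P179C.mem_center_iff]
  exact fun g x => cn_eq_iff.1 (h g) x

omit [Fintype G] in
theorem cn_of_center {a : MonoidAlgebra k G} (h : ∀ b, b * a = a * b) (g : G) : cn g a = a := by
  rw [cn, h, mul_assoc, sg_mul_inv, mul_one]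

theorem coeff_mul_zero (hD : IsPGroup p D) {u : G} (hu : u ∈ D) {a b : MonoidAlgebra k G}
    (ha : cn u a = a) (hb : cn u b = b) (hb0 : ∀ g, g * u = u * g → b.coeff g = 0) {y : G}
    (hy : y * u = u * y) : (a * b).coeff y = 0 := by
  have hZ : IsPGroup p (zpowers u) := hD.to_le (zpowers_le.2 hu)
  have hfix : ∀ a : MonoidAlgebra k G, cn u a = a → ∀ d ∈ zpowers u, ∀ x,
      a.coeff (d * x * d⁻¹) = a.coeff x := by
    intro a ha d hd
    have h1 : zpowers u ≤
        ({ carrier := {c | cn c a = a}
           mul_mem' := by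
             intro c d hc hd
             change cn (c * d) a = a
             rw [cn_mul, hd, hc]
           one_mem' := cn_one a
           inv_mem' := by
             intro c hc
             change cn c⁻¹ a = a
             conv_lhs => rw [← (show cn c a = a from hc)]
             rw [← cn_mul, inv_mul_cancel, cn_one] } : Subgroup G) := zpowers_le.2 ha
    exact cn_eq_iff.1 (h1 hd)
  have hyc : y ∈ centralizer ((zpowers u : Subgroup G) : Set G) := by
    rw [mem_centralizer_iff]
    intro h hh
    obtain ⟨n, rfl⟩ := mem_zpowers_iff.1 hh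
    exact (Commute.zpow_right (show Commute y u from hy) n).eq.symm
  rw [coeff_mul_eq_conv, conv_cut p _ hZ (hfix a ha) (hfix b hb) hyc]
  unfold conv
  refine Finset.sum_eq_zero fun h _ => ?_
  have : cutC (zpowers u) (fun g => b.coeff g) (h⁻¹ * y) = 0 := by
    unfold cutC
    split_ifs with h1
    · refine hb0 _ ?_
      exact ((mem_centralizer_iff.1 h1) u (mem_zpowers u)).symm
    · rfl
  rw [this, mul_zero]

variable {del : G → k}

omit hp [CharP k p] in
theorem w_mul_der (hdel : ∀ u ∈ D, ∀ v ∈ D, del (u * v) = del u + del v)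
    {c : MonoidAlgebra k G} (hc : ∀ u ∈ D, cn u c = c) {w : MonoidAlgebra k G}
    (hw : ∀ b, b * w = w * b)
    (hw0 : ∀ u ∈ D, del u ≠ 0 → ∀ g, g * u = u * g → (c * w).coeff g = 0) {z : MonoidAlgebra k G}
    (hz : ∀ b, b * z = z * b) : w * der (corf D del c) z = 0 := by
  have hwc := cn_of_center hw
  obtain ⟨ξ, hξ⟩ := cob hdel (⊤ : Subgroup G) (fun α => cn α.out c * w) (by
    intro g _ α
    obtain ⟨u, hu, he⟩ := smul_out g α
    rw [he, cn_out hc _ hu, cn_mul, cn_mul', hwc]) (fun _ => 0) (by simp) (by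
    intro g _ α h hgα hgh hne
    have hu := (smul_eq_iff g α).1 hgα
    set u := α.out⁻¹ * g * α.out with hudef
    have e1 : g * α.out = α.out * u := by rw [hudef]; group
    rw [e1, eps_mul hdel _ hu]
    by_contra hcon
    have hdu : del u ≠ 0 := by
      intro h
      apply hcon
      rw [h]
      ring
    apply hne
    have e2 : cn α.out c * w = cn α.out (c * w) := by rw [cn_mul', hwc]
    rw [e2, coeff_cn]
    refine hw0 u hu hdu _ ?_
    have e3 : h * g = g * h := by
      conv_lhs => rw [← hgh]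
      group
    rw [hudef]
    calc α.out⁻¹ * h * α.out * (α.out⁻¹ * g * α.out) = α.out⁻¹ * (h * g) * α.out := by group
      _ = α.out⁻¹ * (g * h) * α.out := by rw [e3]
      _ = _ := by group)
  have h1 : ∀ g, corf D del c g * w = ξ - cn g ξ := by
    intro g
    have := hξ g (mem_top g)
    rw [zero_smul, zero_add] at this
    rw [← this]
    unfold corf
    rw [Finset.sum_mul]
    refine Finset.sum_congr rfl fun α _ => ?_
    rw [smul_mul_assoc]
  rw [← hw]
  change (∑ g, z.coeff g • (corf D del c g * sg g)) * w = 0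
  rw [Finset.sum_mul]
  have h2 : ∀ g, z.coeff g • (corf D del c g * sg g) * w =
      ξ * (z.coeff g • sg g) - (z.coeff g • sg g) * ξ := by
    intro g
    calc z.coeff g • (corf D del c g * sg g) * w =
        z.coeff g • (corf D del c g * (sg g * w)) := by
          rw [smul_mul_assoc, mul_assoc]
      _ = z.coeff g • ((corf D del c g * w) * sg g) := by rw [hw, mul_assoc]
      _ = z.coeff g • ((ξ - sg g * ξ * sg g⁻¹) * sg g) := by rw [h1]; rfl
      _ = z.coeff g • (ξ * sg g - sg g * ξ * (sg g⁻¹ * sg g)) := by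
          rw [sub_mul]; simp only [mul_assoc]
      _ = _ := by rw [sg_inv_mul, mul_one, smul_sub, mul_smul_comm, smul_mul_assoc]
  simp only [h2]
  rw [Finset.sum_sub_distrib, ← Finset.mul_sum, ← Finset.sum_mul, ← eq_sum, hz, sub_self]

theorem i_mul_corf (hdel : ∀ u ∈ D, ∀ v ∈ D, del (u * v) = del u + del v)
    {c i : MonoidAlgebra k G} (hc : ∀ u ∈ D, cn u c = c) (hi : ∀ u ∈ D, cn u i = i)
    (hbc : ∀ t : G, ∀ u ∈ D, t⁻¹ * u * t ∈ D → del (t⁻¹ * u * t) ≠ del u →
      ∀ g, g * u = u * g → (i * cn t c).coeff g = 0) :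
    ∃ ξ : MonoidAlgebra k G, ∀ u ∈ D,
      i * corf D del c u = del u • (i * tr D c) + ξ - cn u ξ := by
  obtain ⟨ξ, hξ⟩ := cob hdel D (fun α => i * cn α.out c) (by
    intro g hg α
    obtain ⟨u, hu, he⟩ := smul_out g α
    rw [he, cn_out hc _ hu, cn_mul, cn_mul', hi g hg]) del hdel (by
    intro g hg α h hgα hgh hne
    have hu := (smul_eq_iff g α).1 hgα
    have e1 : g * α.out = α.out * (α.out⁻¹ * g * α.out) := by group
    rw [e1, eps_mul hdel _ hu, add_sub_cancel_left]
    by_contra hcon
    apply hne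
    refine hbc α.out g hg hu hcon h ?_
    conv_lhs => rw [← hgh]
    group)
  refine ⟨ξ, fun u hu => ?_⟩
  have h1 := hξ u hu
  have h2 : i * corf D del c u =
      ∑ α : G ⧸ D, (eps D del α.out - eps D del (u⁻¹ * α.out)) • (i * cn α.out c) := by
    unfold corf
    rw [Finset.mul_sum]
    refine Finset.sum_congr rfl fun α _ => ?_
    rw [mul_smul_comm]
  rw [h2, h1, tr, Finset.mul_sum]

/-- the core lemma, with the hypothesis on `c * w` -/
theorem core_abs' (hD : IsPGroup p D) (hab : D ≤ centralizer (D : Set G))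
    (del : G → k) (hdel : ∀ u ∈ D, ∀ v ∈ D, del (u * v) = del u + del v)
    (c i : MonoidAlgebra k G) (hc : ∀ u ∈ D, cn u c = c) (hi : ∀ u ∈ D, cn u i = i)
    (hii : i * i = i)
    (hbc : ∀ t : G, ∀ u ∈ D, t⁻¹ * u * t ∈ D → del (t⁻¹ * u * t) ≠ del u →
      ∀ g, g * u = u * g → (i * cn t c).coeff g = 0)
    {w : MonoidAlgebra k G} (hw : w ∈ Subalgebra.center k (MonoidAlgebra k G))
    (hw0 : ∀ u ∈ D, del u ≠ 0 → ∀ g, g * u = u * g → (c * w).coeff g = 0)
    {x : G} (hx : x ∈ D) {z : MonoidAlgebra k G}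
    (hz : z ∈ Subalgebra.center k (MonoidAlgebra k G)) {kap : k}
    (hzx : ∀ y ∈ centralizer (D : Set G), (i * z).coeff y = kap * (sg x * i).coeff y) :
    ∃ Y ∈ Subalgebra.center k (MonoidAlgebra k G), w * Y = 0 ∧
      ∀ y ∈ centralizer (D : Set G), (i * Y).coeff y =
        kap * del x * ((∑ al : G ⧸ D, cn al.out c) * (sg x * i)).coeff y := by
  have hw' : ∀ b, b * w = w * b := fun b => (Subalgebra.mem_center_iff.1 hw b)
  have hz' : ∀ b, b * z = z * b := fun b => (Subalgebra.mem_center_iff.1 hz b)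
  set f := corf D del c with hf
  have hcoc : IsCoc f := isCoc_corf hdel hc
  set d : MonoidAlgebra k G →ₗ[k] MonoidAlgebra k G := der f with hd
  have hdm : ∀ a b, d (a * b) = d a * b + a * d b := fun a b => der_mul hcoc a b
  set Y := d z with hY
  have hYc : ∀ a, a * Y = Y * a := by
    intro a
    have h1 : d (z * a) = d (a * z) := by rw [hz' a]
    rw [hdm, hdm, ← hz' (d a)] at h1
    have h2 : d z * a = a * d z := by
      have h3 : d z * a + d a * z - d a * z = d a * z + a * d z - d a * z := by rw [h1]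
      rw [add_sub_cancel_right, add_sub_cancel_left] at h3
      exact h3
    exact h2.symm
  refine ⟨Y, Subalgebra.mem_center_iff.2 hYc, w_mul_der hdel hc hw' hw0 hz', ?_⟩
  obtain ⟨ξ, hξ⟩ := i_mul_corf hdel hc hi hbc
  set a := tr D c with ha
  have hac : ∀ b, b * a = a * b := fun b =>
    (Subalgebra.mem_center_iff.1 (mem_center_of_cn (fun g => cn_tr hc g)) b)
  set η := d i * i - i * d i + i * ξ * i with hη
  set P : MonoidAlgebra k G → MonoidAlgebra k G := pd d η with hP
  have hPm : ∀ s t, P (s * t) = P s * t + s * P t := fun s t => pd_mul hdm η s t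
  have hPi : P i = 0 := pd_idem hdm hii ξ
  have hPz : ∀ s, (∀ b, b * s = s * b) → P s = d s := by
    intro s hs
    change d s - (η * s - s * η) = d s
    rw [hs η, sub_self, sub_zero]
  have hPadd : ∀ s t, P (s + t) = P s + P t := by
    intro s t
    change d (s + t) - (η * (s + t) - (s + t) * η) = d s - (η * s - s * η) + (d t - (η * t - t * η))
    rw [map_add]
    noncomm_ring
  have hPsmul : ∀ (r : k) s, P (r • s) = r • P s := by
    intro r s
    change d (r • s) - (η * (r • s) - (r • s) * η) = r • (d s - (η * s - s * η))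
    rw [map_smul, mul_smul_comm, smul_mul_assoc, ← smul_sub, ← smul_sub]
  have hPsum : ∀ (F : G → MonoidAlgebra k G), P (∑ g, F g) = ∑ g, P (F g) := by
    intro F
    have := map_sum (AddMonoidHom.mk' P hPadd) F univ
    exact this
  have hisg : ∀ u ∈ D, i * sg u = sg u * i := by
    intro u hu
    have h1 := hi u hu
    calc i * sg u = cn u i * sg u := by rw [h1]
      _ = sg u * i * (sg u⁻¹ * sg u) := by rw [cn]; simp only [mul_assoc]
      _ = _ := by rw [sg_inv_mul, mul_one]
  -- the values on `D`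
  have hPu : ∀ u ∈ D, P (sg u * i) = del u • (a * (sg u * i)) := by
    intro u hu
    have h1 : P (sg u * i) = P (sg u) * i := by rw [hPm, hPi, mul_zero, add_zero]
    have h2 : P (sg u * i) = i * P (sg u) * i := by
      have h3 : (sg u * i : MonoidAlgebra k G) = i * (sg u * i) := by
        rw [← mul_assoc, hisg u hu, mul_assoc, hii]
      conv_lhs => rw [h3, hPm, hPi, zero_mul, zero_add, h1]
      rw [mul_assoc]
    have h4 : i * P (sg u) * i = i * f u * i * sg u - (i * η * i * sg u - sg u * (i * η * i)) := by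
      change i * (der f (sg u) - (η * sg u - sg u * η)) * i = _
      rw [der_sg]
      calc i * (f u * sg u - (η * sg u - sg u * η)) * i
          = i * f u * (sg u * i) - (i * η * (sg u * i) - (i * sg u) * η * i) := by noncomm_ring
        _ = i * f u * (i * sg u) - (i * η * (i * sg u) - (sg u * i) * η * i) := by
            rw [hisg u hu]
        _ = _ := by noncomm_ring
    have h5 : i * η * i = i * ξ * i := eta_mid hdm hii ξ
    have h6 : i * f u * i = del u • (a * i) + i * ξ * i - sg u * (i * ξ * i) * sg u⁻¹ := by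
      have h7 : i * f u = i * (del u • (i * a) + ξ - cn u ξ) := by
        rw [← hξ u hu, ← mul_assoc, hii]
      rw [h7]
      have h8 : i * cn u ξ * i = sg u * (i * ξ * i) * sg u⁻¹ := by
        have h9 : cn u (i * ξ * i) = i * cn u ξ * i := by
          rw [cn_mul', cn_mul', hi u hu]
        rw [← h9]
        rfl
      calc i * (del u • (i * a) + ξ - cn u ξ) * i =
          del u • ((i * i) * a * i) + i * ξ * i - i * cn u ξ * i := by
            rw [mul_sub, mul_add, sub_mul, add_mul, mul_smul_comm, smul_mul_assoc]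
            simp only [mul_assoc]
        _ = _ := by
            rw [hii, h8, hac i, mul_assoc, hii]
    rw [h2, h4, h5, h6]
    have h10 : (a * i : MonoidAlgebra k G) * sg u = a * (sg u * i) := by
      rw [mul_assoc, hisg u hu]
    calc (del u • (a * i) + i * ξ * i - sg u * (i * ξ * i) * sg u⁻¹) * sg u -
          (i * ξ * i * sg u - sg u * (i * ξ * i))
        = del u • ((a * i) * sg u) + i * ξ * i * sg u - sg u * (i * ξ * i) * (sg u⁻¹ * sg u) -
          (i * ξ * i * sg u - sg u * (i * ξ * i)) := by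
            rw [sub_mul, add_mul, smul_mul_assoc]
            simp only [mul_assoc]
      _ = _ := by
            rw [sg_inv_mul, mul_one, h10]
            abel
  -- `P` commutes with the conjugation by `D` on `i A i`
  have hPii : ∀ m, i * m = m → m * i = m → i * P m = P m ∧ P m * i = P m := by
    intro m h1 h2
    constructor
    · conv_rhs => rw [← h1, hPm, hPi, zero_mul, zero_add]
    · conv_rhs => rw [← h2, hPm, hPi, mul_zero, add_zero]
  have hPcn : ∀ u ∈ D, ∀ m, i * m = m → m * i = m → P (cn u m) = cn u (P m) := by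
    intro u hu m h1 h2
    have hu' := inv_mem hu
    have e1 : cn u m = (sg u * i) * m * (sg u⁻¹ * i) := by
      rw [← hisg u⁻¹ hu', cn]
      calc sg u * m * sg u⁻¹ = sg u * (i * m * i) * sg u⁻¹ := by rw [h1, h2]
        _ = _ := by simp only [mul_assoc]
    rw [e1, hPm, hPm, hPu u hu, hPu u⁻¹ hu', del_inv hdel hu]
    obtain ⟨h3, h4⟩ := hPii m h1 h2
    have e2 : sg u * i * m * (-del u • (a * (sg u⁻¹ * i))) =
        -(del u • (a * (sg u * i)) * m * (sg u⁻¹ * i)) := by
      rw [neg_smul, mul_neg, mul_smul_comm, smul_mul_assoc, smul_mul_assoc]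
      congr 2
      calc sg u * i * m * (a * (sg u⁻¹ * i)) = (sg u * i * m * a) * (sg u⁻¹ * i) := by
            simp only [mul_assoc]
        _ = a * (sg u * i * m) * (sg u⁻¹ * i) := by rw [hac]
        _ = _ := by simp only [mul_assoc]
    rw [add_mul, e2]
    have e3 : sg u * i * P m * (sg u⁻¹ * i) = cn u (P m) := by
      rw [← hisg u⁻¹ hu', cn]
      calc sg u * i * P m * (i * sg u⁻¹) = sg u * (i * P m * i) * sg u⁻¹ := by
            simp only [mul_assoc]
        _ = _ := by rw [h3, h4]
    rw [e3]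
    abel
  set ρ := i * z - kap • (sg x * i) with hρ
  have hρ1 : i * ρ = ρ := by
    rw [hρ, mul_sub, mul_smul_comm, ← mul_assoc, ← mul_assoc, hii, hisg x hx, mul_assoc, hii]
  have hρ2 : ρ * i = ρ := by
    rw [hρ, sub_mul, smul_mul_assoc, mul_assoc, mul_assoc, hii, ← hz' i, ← mul_assoc, hii]
  have hρ3 : ∀ u ∈ D, cn u ρ = ρ := by
    intro u hu
    have h1 : cn u (sg x * i) = sg x * i := by
      rw [cn_mul', hi u hu, cn_sg]
      have := mem_centralizer_iff.1 (hab hx) u hu
      rw [this, mul_inv_cancel_right]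
    rw [hρ, cn_sub, cn_smul, h1, cn_mul', hi u hu, cn_of_center hz']
  have hρ4 : ∀ y ∈ centralizer (D : Set G), ρ.coeff y = 0 := by
    intro y hy
    rw [hρ]
    simp [hzx y hy]
  have hPρ : ∀ y ∈ centralizer (D : Set G), (P ρ).coeff y = 0 := by
    intro y hy
    have h1 : P ρ = ∑ g, ρ.coeff g • P (i * sg g * i) := by
      have h2 : ρ = ∑ g, ρ.coeff g • (i * sg g * i) := by
        conv_lhs => rw [← hρ1, ← hρ2, ← mul_assoc, hρ1]
        conv_lhs => rw [← hρ1, eq_sum ρ, Finset.mul_sum, Finset.sum_mul]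
        refine Finset.sum_congr rfl fun g _ => ?_
        rw [mul_smul_comm, smul_mul_assoc]
      conv_lhs => rw [h2]
      rw [hPsum]
      exact Finset.sum_congr rfl fun g _ => hPsmul _ _
    rw [h1, MonoidAlgebra.coeff_sum, Finsupp.finsetSum_apply]
    have hfin : Finite D := inferInstance
    refine sum_eq_zero_of_perm p hD (conjPerm D) _ ?_ ?_
    · intro v g
      rw [conjPerm_apply]
      have h3 : (i * sg ((v : G) * g * (v : G)⁻¹) * i : MonoidAlgebra k G) =
          cn (v : G) (i * sg g * i) := by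
        rw [cn_mul', cn_mul', hi v v.2, cn_sg]
      have h4 : ρ.coeff ((v : G) * g * (v : G)⁻¹) = ρ.coeff g := cn_eq_iff.1 (hρ3 v v.2) g
      rw [h3, hPcn v v.2 _ (by simp only [← mul_assoc, hii]) (by rw [mul_assoc, hii]), h4]
      change ρ.coeff g * (cn (v : G) (P (i * sg g * i))).coeff y =
        ρ.coeff g * (P (i * sg g * i)).coeff y
      rw [coeff_cn]
      have h5 := mem_centralizer_iff.1 hy v v.2
      have h6 : (v : G)⁻¹ * y * v = y := by
        rw [mul_assoc, ← h5, inv_mul_cancel_left]
      rw [h6]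
    · intro g hg
      have h1 : g ∈ centralizer (D : Set G) := (mem_cent_iff D g).2 fun u hu => hg ⟨u, hu⟩
      change ρ.coeff g * _ = 0
      rw [hρ4 g h1, zero_mul]
  intro y hy
  have h1 : i * Y = P (i * z) := by rw [hPm, hPi, zero_mul, zero_add, hPz z hz']
  have h2 : i * z = kap • (sg x * i) + ρ := by rw [hρ]; abel
  rw [h1, h2, hPadd, hPsmul, hPu x hx]
  have h3 := hPρ y hy
  rw [MonoidAlgebra.coeff_add, Finsupp.add_apply, h3, add_zero, smul_smul]
  rfl

/-- the core lemma -/
theorem core_abs (hD : IsPGroup p D) (hab : D ≤ centralizer (D : Set G))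
    (del : G → k) (hdel : ∀ u ∈ D, ∀ v ∈ D, del (u * v) = del u + del v)
    (c i : MonoidAlgebra k G) (hc : ∀ u ∈ D, cn u c = c) (hi : ∀ u ∈ D, cn u i = i)
    (hii : i * i = i)
    (hbc : ∀ t : G, ∀ u ∈ D, t⁻¹ * u * t ∈ D → del (t⁻¹ * u * t) ≠ del u →
      ∀ g, g * u = u * g → (i * cn t c).coeff g = 0)
    {w : MonoidAlgebra k G} (hw : w ∈ Subalgebra.center k (MonoidAlgebra k G))
    (hw0 : ∀ u ∈ D, del u ≠ 0 → ∀ g, g * u = u * g → w.coeff g = 0)
    {x : G} (hx : x ∈ D) {z : MonoidAlgebra k G}
    (hz : z ∈ Subalgebra.center k (MonoidAlgebra k G)) {kap : k}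
    (hzx : ∀ y ∈ centralizer (D : Set G), (i * z).coeff y = kap * (sg x * i).coeff y) :
    ∃ Y ∈ Subalgebra.center k (MonoidAlgebra k G), w * Y = 0 ∧
      ∀ y ∈ centralizer (D : Set G), (i * Y).coeff y =
        kap * del x * ((∑ al : G ⧸ D, cn al.out c) * (sg x * i)).coeff y :=
  core_abs' hD hab del hdel c i hc hi hii hbc hw
    (fun u hu h0 _ hg => coeff_mul_zero hD hu (hc u hu)
      (cn_of_center (fun b => Subalgebra.mem_center_iff.1 hw b) u) (hw0 u hu h0) hg) hx hz hzx

end Core

end P179H364W
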